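import Crest.Agent.Lib.UST.LimitSys
import Crest.Agent.Lib.SRFlow.Limit
import Crest.Agent.Lib.SRFlow.Reindex

/-!
# Balls in a graph and the canonical windows
-/

set_option autoImplicit false
set_option linter.unusedSectionVars false
set_option linter.unusedSimpArgs false
set_option linter.unusedVariables false

namespace Crest.Agent.Lib.UST

open Finset Filter SimpleGraph Crest.Agent.Lib.SRFlow Crest.ProbabilityR.SpanningTrees Topology
open MeasureTheory ProbabilityTheory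

open scoped Classical

/-- `x` is at graph distance at most `r` from `u`. -/
def WalkLe (G : SimpleGraph ℕ) : ℕ → ℕ → ℕ → Prop
  | 0, u, x => u = x
  | r + 1, u, x => WalkLe G r u x ∨ ∃ z, G.Adj u z ∧ WalkLe G r z x

lemma WalkLe.succ {G : SimpleGraph ℕ} {r u x : ℕ} (h : WalkLe G r u x) : WalkLe G (r + 1) u x :=
  Or.inl h

lemma WalkLe.mono {G : SimpleGraph ℕ} {r r' u x : ℕ} (hr : r ≤ r') (h : WalkLe G r u x) :
    WalkLe G r' u x := by
  induction hr with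
  | refl => exact h
  | step _ ih => exact ih.succ

lemma walkLe_refl (G : SimpleGraph ℕ) (r u : ℕ) : WalkLe G r u u := by
  induction r with
  | zero => rfl
  | succ r ih => exact ih.succ

lemma walkLe_of_walk {G : SimpleGraph ℕ} {u x : ℕ} (p : G.Walk u x) : WalkLe G p.length u x := by
  induction p with
  | nil => rfl
  | cons h q ih => exact Or.inr ⟨_, h, ih⟩

lemma exists_walkLe {G : SimpleGraph ℕ} (hG : G.Connected) (u x : ℕ) : ∃ r, WalkLe G r u x := by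
  obtain ⟨p⟩ := hG.preconnected u x
  exact ⟨_, walkLe_of_walk p⟩

lemma finite_walkLe {G : SimpleGraph ℕ} (hlf : ∀ v, (G.neighborSet v).Finite) (r u : ℕ) :
    {x | WalkLe G r u x}.Finite := by
  induction r generalizing u with
  | zero =>
    refine (Set.finite_singleton u).subset ?_
    intro x hx
    exact (show u = x from hx).symm
  | succ r ih =>
    refine ((ih u).union ((hlf u).biUnion fun z _ => ih z)).subset ?_
    rintro x (hx | ⟨z, hz, hx⟩)
    · exact Or.inl hx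
    · exact Or.inr (Set.mem_biUnion hz hx)

lemma walkLe_comap (G : SimpleGraph ℕ) (σ : Equiv.Perm ℕ) (r u x : ℕ) :
    WalkLe (G.comap σ) r u x ↔ WalkLe G r (σ u) (σ x) := by
  induction r generalizing u with
  | zero =>
    show u = x ↔ σ u = σ x
    simp
  | succ r ih =>
    show (WalkLe (G.comap σ) r u x ∨ ∃ z, (G.comap σ).Adj u z ∧ WalkLe (G.comap σ) r z x)
      ↔ (WalkLe G r (σ u) (σ x) ∨ ∃ z, G.Adj (σ u) z ∧ WalkLe G r z (σ x))
    rw [ih]
    refine or_congr Iff.rfl ?_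
    constructor
    · rintro ⟨z, hz, hx⟩
      exact ⟨σ z, hz, (ih z).mp hx⟩
    · rintro ⟨z, hz, hx⟩
      obtain ⟨z₀, rfl⟩ := σ.surjective z
      exact ⟨z₀, hz, (ih z₀).mpr hx⟩

/-- The set of vertices within distance `r` of a pair. -/
def VBs (G : SimpleGraph ℕ) (r : ℕ) (e : Sym2 ℕ) : Set ℕ := {x | ∃ y ∈ e, WalkLe G r y x}

/-- The finite set of vertices within distance `r` of a pair. -/
noncomputable def VBF (G : SimpleGraph ℕ) (r : ℕ) (e : Sym2 ℕ) : Finset ℕ :=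
  if h : (VBs G r e).Finite then h.toFinset else ∅

/-- The window of pairs of vertices within distance `r` of a pair. -/
noncomputable def W₀ (G : SimpleGraph ℕ) (r : ℕ) (e : Sym2 ℕ) : Finset (Sym2 ℕ) := (VBF G r e).sym2

lemma finite_VBs {G : SimpleGraph ℕ} (hlf : ∀ v, (G.neighborSet v).Finite) (r : ℕ) (e : Sym2 ℕ) :
    (VBs G r e).Finite := by
  induction e using Sym2.ind with
  | _ a b =>
    refine ((finite_walkLe hlf r a).union (finite_walkLe hlf r b)).subset ?_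
    rintro x ⟨y, hy, hx⟩
    rw [Sym2.mem_iff] at hy
    rcases hy with rfl | rfl
    · exact Or.inl hx
    · exact Or.inr hx

lemma mem_VBF {G : SimpleGraph ℕ} (hlf : ∀ v, (G.neighborSet v).Finite) {r : ℕ} {e : Sym2 ℕ}
    {x : ℕ} : x ∈ VBF G r e ↔ ∃ y ∈ e, WalkLe G r y x := by
  unfold VBF
  rw [dif_pos (finite_VBs hlf r e), Set.Finite.mem_toFinset]
  rfl

lemma mem_W₀ {G : SimpleGraph ℕ} (hlf : ∀ v, (G.neighborSet v).Finite) {r : ℕ} {e d : Sym2 ℕ} :
    d ∈ W₀ G r e ↔ ∀ x ∈ d, ∃ y ∈ e, WalkLe G r y x := by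
  unfold W₀
  rw [Finset.mem_sym2_iff]
  simp only [mem_VBF hlf]

lemma self_mem_W₀ {G : SimpleGraph ℕ} (hlf : ∀ v, (G.neighborSet v).Finite) (r : ℕ) (e : Sym2 ℕ) :
    e ∈ W₀ G r e := by
  rw [mem_W₀ hlf]
  exact fun x hx => ⟨x, hx, walkLe_refl G r x⟩

lemma W₀_mono {G : SimpleGraph ℕ} (hlf : ∀ v, (G.neighborSet v).Finite) {r r' : ℕ} (hr : r ≤ r')
    (e : Sym2 ℕ) : W₀ G r e ⊆ W₀ G r' e := by
  intro d hd
  rw [mem_W₀ hlf] at hd ⊢
  intro x hx
  obtain ⟨y, hy, hw⟩ := hd x hx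
  exact ⟨y, hy, hw.mono hr⟩

/-- The windows exhaust all pairs. -/
lemma exists_W₀_superset {G : SimpleGraph ℕ} (hG : G.Connected)
    (hlf : ∀ v, (G.neighborSet v).Finite) (e : Sym2 ℕ) (A : Finset (Sym2 ℕ)) :
    ∃ r, A ⊆ W₀ G r e := by
  induction e using Sym2.ind with
  | _ a b =>
    choose R hR using fun x => exists_walkLe hG a x
    refine ⟨(vx A).sup R, fun d hd => ?_⟩
    rw [mem_W₀ hlf]
    intro x hx
    refine ⟨a, Sym2.mem_mk_left a b, (hR x).mono ?_⟩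
    exact Finset.le_sup (f := R) (mem_vx hd hx)

lemma mem_VBs_comap (G : SimpleGraph ℕ) (σ : Equiv.Perm ℕ) (r : ℕ) (b : Sym2 ℕ) (x : ℕ) :
    x ∈ VBs (G.comap σ) r b ↔ σ x ∈ VBs G r (shE σ b) := by
  unfold VBs
  simp only [Set.mem_setOf_eq]
  constructor
  · rintro ⟨y, hy, hw⟩
    exact ⟨σ y, mem_sh_iff.mpr hy, (walkLe_comap G σ r y x).mp hw⟩
  · rintro ⟨y, hy, hw⟩
    obtain ⟨y₀, rfl⟩ := σ.surjective y
    exact ⟨y₀, mem_sh_iff.mp hy, (walkLe_comap G σ r y₀ x).mpr hw⟩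

lemma VBF_map (G : SimpleGraph ℕ) (σ : Equiv.Perm ℕ) (r : ℕ) (b : Sym2 ℕ) :
    mapV σ (VBF (G.comap σ) r b) = VBF G r (shE σ b) := by
  have hpre : VBs (G.comap σ) r b = σ ⁻¹' VBs G r (shE σ b) := by
    ext x
    exact mem_VBs_comap G σ r b x
  by_cases hf : (VBs G r (shE σ b)).Finite
  · have hf' : (VBs (G.comap σ) r b).Finite := by
      rw [hpre]
      exact hf.preimage σ.injective.injOn
    unfold VBF
    rw [dif_pos hf, dif_pos hf']
    ext x
    obtain ⟨x₀, rfl⟩ := σ.surjective x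
    refine (Finset.mem_map' σ.toEmbedding).trans ?_
    rw [Set.Finite.mem_toFinset, Set.Finite.mem_toFinset]
    exact mem_VBs_comap G σ r b x₀
  · have hf' : ¬ (VBs (G.comap σ) r b).Finite := by
      intro h
      rw [hpre] at h
      exact hf (h.of_preimage σ.surjective)
    unfold VBF
    rw [dif_neg hf, dif_neg hf']
    rfl

lemma W₀_map (G : SimpleGraph ℕ) (σ : Equiv.Perm ℕ) (r : ℕ) (b : Sym2 ℕ) :
    mapE σ (W₀ (G.comap σ) r b) = W₀ G r (shE σ b) := by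
  ext d
  obtain ⟨d₀, rfl⟩ := (shE σ).surjective d
  rw [mem_mapE_shE]
  unfold W₀
  rw [Finset.mem_sym2_iff, Finset.mem_sym2_iff, ← VBF_map]
  constructor
  · intro h x hx
    obtain ⟨x₀, rfl⟩ := σ.surjective x
    exact Finset.mem_map_of_mem _ (h x₀ (mem_sh_iff.mp hx))
  · intro h x hx
    have := h (σ x) (mem_sh_iff.mpr hx)
    exact (Finset.mem_map' σ.toEmbedding).mp this

/-- The windows are good enough at time `k`. -/
def WP (G : SimpleGraph ℕ) (k : ℕ) (e : Sym2 ℕ) (r : ℕ) : Prop :=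
  ∀ F F', W₀ G r e ⊆ F → W₀ G r e ⊆ F' →
    ∫ ζ, |flowE (cG G F) F k ζ e - flowE (cG G F') F' k ζ e| ∂(gamE (Sym2 ℕ)) ≤ (1 / 2 : ℝ) ^ k

/-- The first good radius. -/
noncomputable def rr (G : SimpleGraph ℕ) (k : ℕ) (e : Sym2 ℕ) : ℕ := sInf {r | WP G k e r}

/-- The canonical window at time `k`. -/
noncomputable def Wd (G : SimpleGraph ℕ) (k : ℕ) (e : Sym2 ℕ) : Finset (Sym2 ℕ) :=
  W₀ G (rr G k e) e

lemma exists_WP {G : SimpleGraph ℕ} (hsys : SRSys (cG G)) (hG : G.Connected)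
    (hlf : ∀ v, (G.neighborSet v).Finite) (k : ℕ) (e : Sym2 ℕ) : ∃ r, WP G k e r := by
  obtain ⟨A, _, hA⟩ := exists_window hsys k e (d := (1 / 2 : ℝ) ^ k) (by positivity)
  obtain ⟨r, hr⟩ := exists_W₀_superset hG hlf e A
  exact ⟨r, fun F F' hF hF' => hA F F' (hr.trans hF) (hr.trans hF')⟩

lemma WP_rr {G : SimpleGraph ℕ} (hsys : SRSys (cG G)) (hG : G.Connected)
    (hlf : ∀ v, (G.neighborSet v).Finite) (k : ℕ) (e : Sym2 ℕ) : WP G k e (rr G k e) :=
  Nat.sInf_mem (exists_WP hsys hG hlf k e)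

lemma exists_mapE_eq (σ : Equiv.Perm ℕ) (F : Finset (Sym2 ℕ)) : ∃ F₀, mapE σ F₀ = F :=
  ⟨F.map (shE σ).symm.toEmbedding, by
    ext x
    simp [mapE, Finset.mem_map_equiv]⟩

lemma flowE_comap (G : SimpleGraph ℕ) (σ : Equiv.Perm ℕ) (F : Finset (Sym2 ℕ)) (τ : ℝ)
    (ζ : Sym2 ℕ → ℝ) (b : Sym2 ℕ) :
    flowE (cG G (mapE σ F)) (mapE σ F) τ ζ (shE σ b)
      = flowE (cG (G.comap σ) F) F τ (ζ ∘ shE σ) b :=
  flowE_reindex (shE σ) (fun S _ => (cG_comap G σ F S).symm) τ ζ b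

lemma measurable_flowE_const (c : Finset (Sym2 ℕ) → ℝ) (F : Finset (Sym2 ℕ)) (τ : ℝ) (e : Sym2 ℕ) :
    Measurable fun ζ : Sym2 ℕ → ℝ => flowE c F τ ζ e := by
  unfold flowE
  by_cases he : e ∈ F
  · simp only [he, dif_pos]
    have h1 := measurable_flowV_right (wc c F) τ
    have h2 : Measurable (F.restrict : (Sym2 ℕ → ℝ) → (↥F → ℝ)) := Finset.measurable_restrict F
    have h3 := (measurable_pi_apply (⟨e, he⟩ : ↥F)).comp (h1.comp h2)
    exact h3
  · simp only [he, dif_neg, not_false_eq_true]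
    exact measurable_pi_apply e

lemma integral_comap (G : SimpleGraph ℕ) (σ : Equiv.Perm ℕ) (F F' : Finset (Sym2 ℕ)) (k : ℕ)
    (b : Sym2 ℕ) :
    ∫ ζ, |flowE (cG G (mapE σ F)) (mapE σ F) k ζ (shE σ b)
        - flowE (cG G (mapE σ F')) (mapE σ F') k ζ (shE σ b)| ∂(gamE (Sym2 ℕ))
      = ∫ ζ, |flowE (cG (G.comap σ) F) F k ζ b - flowE (cG (G.comap σ) F') F' k ζ b|
          ∂(gamE (Sym2 ℕ)) := by
  simp_rw [flowE_comap]
  have hmap := gamE_map_reindex (shE σ)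
  have hmφ : Measurable fun ζ' : Sym2 ℕ → ℝ => ζ' ∘ (shE σ) :=
    measurable_pi_lambda _ fun i => measurable_pi_apply _
  have hmH : Measurable fun ζ₀ : Sym2 ℕ → ℝ =>
      |flowE (cG (G.comap σ) F) F k ζ₀ b - flowE (cG (G.comap σ) F') F' k ζ₀ b| :=
    ((measurable_flowE_const _ F _ b).sub (measurable_flowE_const _ F' _ b)).abs
  have := integral_map (μ := gamE (Sym2 ℕ)) hmφ.aemeasurable hmH.aestronglyMeasurable
  rw [hmap] at this
  exact this.symm

lemma WP_comap (G : SimpleGraph ℕ) (σ : Equiv.Perm ℕ) (k : ℕ) (b : Sym2 ℕ) (r : ℕ) :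
    WP (G.comap σ) k b r ↔ WP G k (shE σ b) r := by
  constructor
  · intro h F F' hF hF'
    obtain ⟨F₀, rfl⟩ := exists_mapE_eq σ F
    obtain ⟨F₁, rfl⟩ := exists_mapE_eq σ F'
    rw [← W₀_map] at hF hF'
    rw [integral_comap]
    exact h F₀ F₁ (Finset.map_subset_map.mp hF) (Finset.map_subset_map.mp hF')
  · intro h F F' hF hF'
    rw [← integral_comap]
    refine h _ _ ?_ ?_
    · rw [← W₀_map]
      exact Finset.map_subset_map.mpr hF
    · rw [← W₀_map]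
      exact Finset.map_subset_map.mpr hF'

lemma rr_comap (G : SimpleGraph ℕ) (σ : Equiv.Perm ℕ) (k : ℕ) (b : Sym2 ℕ) :
    rr (G.comap σ) k b = rr G k (shE σ b) := by
  unfold rr
  congr 1
  ext r
  exact WP_comap G σ k b r

lemma Wd_map (G : SimpleGraph ℕ) (σ : Equiv.Perm ℕ) (k : ℕ) (b : Sym2 ℕ) :
    mapE σ (Wd (G.comap σ) k b) = Wd G k (shE σ b) := by
  unfold Wd
  rw [rr_comap, W₀_map]

end Crest.Agent.Lib.UST
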