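import Mathlib

/-!
# The determinant of a sum of rank one matrices (Cauchy–Binet for `B Z Bᵀ`)
-/

set_option autoImplicit false
set_option linter.unusedSectionVars false
set_option linter.unusedSimpArgs false
set_option linter.unusedVariables false

namespace Crest.Agent.Lib.UST

open Finset Matrix

variable {n m R : Type*} [Fintype n] [DecidableEq n] [Fintype m] [DecidableEq m] [CommRing R]

/-- The square matrix whose row `a` is the vector `b (f a)`. -/
def rowsM (b : m → n → R) (f : n → m) : Matrix n n R := Matrix.of fun a c => b (f a) c

/-- The contribution of a map to the expansion of the determinant. -/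
def weightF (b : m → n → R) (f : n → m) : R := (∏ a, b (f a) a) * (rowsM b f).det

/-- Multilinear expansion of the determinant. -/
theorem det_sum_rank_one (b : m → n → R) (z : m → R) :
    (Matrix.of fun a c => ∑ e, z e * b e a * b e c : Matrix n n R).det
      = ∑ f : n → m, (∏ a, z (f a)) * weightF b f := by
  have h1 : (Matrix.of fun a c => ∑ e, z e * b e a * b e c : Matrix n n R)
      = fun a => ∑ e, (z e * b e a) • b e := by
    ext a c
    simp [Finset.sum_apply]
  rw [h1]
  have h2 := (detRowAlternating : (n → R) [⋀^n]→ₗ[R] R).toMultilinearMap.map_sum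
    (fun a e => (z e * b e a) • b e)
  refine h2.trans ?_
  refine Finset.sum_congr rfl fun f _ => ?_
  have h3 := (detRowAlternating : (n → R) [⋀^n]→ₗ[R] R).toMultilinearMap.map_smul_univ
    (fun a => z (f a) * b (f a) a) (fun a => b (f a))
  refine h3.trans ?_
  rw [Finset.prod_mul_distrib, smul_eq_mul, weightF, mul_assoc]
  rfl

lemma weightF_of_not_injective (b : m → n → R) {f : n → m} (hf : ¬ Function.Injective f) :
    weightF b f = 0 := by
  unfold Function.Injective at hf
  push Not at hf
  obtain ⟨i, j, hij, hne⟩ := hf
  unfold weightF
  rw [Matrix.det_zero_of_row_eq hne (by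
    funext c
    simp [rowsM, hij]), mul_zero]

/-- The coefficient of a set of vectors. -/
def kap (b : m → n → R) (A : Finset m) : R :=
  ∑ f ∈ (Finset.univ : Finset (n → m)).filter (fun f => Finset.univ.image f = A), weightF b f

/-- **Cauchy–Binet**, grouped by the image. -/
theorem det_eq_sum_kap (b : m → n → R) (z : m → R) :
    (Matrix.of fun a c => ∑ e, z e * b e a * b e c : Matrix n n R).det
      = ∑ A : Finset m, (∏ e ∈ A, z e) * kap b A := by
  rw [det_sum_rank_one]
  rw [← Finset.sum_fiberwise (s := (Finset.univ : Finset (n → m))) (g := fun f => Finset.univ.image f)]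
  refine Finset.sum_congr rfl fun A _ => ?_
  unfold kap
  rw [Finset.mul_sum]
  refine Finset.sum_congr rfl fun f hf => ?_
  by_cases hinj : Function.Injective f
  · have hA : Finset.univ.image f = A := (Finset.mem_filter.mp hf).2
    rw [← hA, Finset.prod_image fun x _ y _ h => hinj h]
  · rw [weightF_of_not_injective b hinj, mul_zero, mul_zero]

lemma kap_of_card_ne (b : m → n → R) {A : Finset m} (hA : A.card ≠ Fintype.card n) :
    kap b A = 0 := by
  unfold kap
  refine Finset.sum_eq_zero fun f hf => ?_
  refine weightF_of_not_injective b fun hinj => hA ?_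
  have h1 := (Finset.mem_filter.mp hf).2
  rw [← h1, Finset.card_image_of_injective _ hinj, Finset.card_univ]

/-- Evaluation of the coefficient on an injective parametrisation. -/
theorem kap_of_injective (b : m → n → R) {f₀ : n → m} (hf₀ : Function.Injective f₀) :
    kap b (Finset.univ.image f₀) = (rowsM b f₀).det ^ 2 := by
  classical
  set A := Finset.univ.image f₀ with hA
  have hcard : A.card = Fintype.card n := by
    rw [hA, Finset.card_image_of_injective _ hf₀, Finset.card_univ]
  -- the parametrisation by permutations
  have hsum : kap b A = ∑ π : Equiv.Perm n, weightF b (f₀ ∘ π) := by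
    unfold kap
    symm
    refine Finset.sum_bij (fun π _ => f₀ ∘ π) ?_ ?_ ?_ ?_
    · intro π _
      rw [Finset.mem_filter]
      refine ⟨Finset.mem_univ _, ?_⟩
      rw [hA]
      ext x
      simp only [Finset.mem_image, Finset.mem_univ, true_and, Function.comp_apply]
      constructor
      · rintro ⟨a, rfl⟩
        exact ⟨π a, rfl⟩
      · rintro ⟨a, rfl⟩
        exact ⟨π.symm a, by simp⟩
    · intro π₁ _ π₂ _ h
      ext a
      exact hf₀ (congrFun h a)
    · intro f hf
      have himg := (Finset.mem_filter.mp hf).2
      have hfinj : Function.Injective f := by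
        have h1 : (Finset.univ.image f).card = (Finset.univ : Finset n).card := by
          rw [himg, hcard, Finset.card_univ]
        have h2 := Finset.card_image_iff.mp h1
        exact fun x y hxy => h2 (Finset.mem_coe.mpr (Finset.mem_univ x))
          (Finset.mem_coe.mpr (Finset.mem_univ y)) hxy
      have hmem : ∀ a, ∃ c, f₀ c = f a := by
        intro a
        have : f a ∈ A := by
          rw [← himg]
          exact Finset.mem_image_of_mem _ (Finset.mem_univ a)
        rw [hA] at this
        obtain ⟨c, _, hc⟩ := Finset.mem_image.mp this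
        exact ⟨c, hc⟩
      choose g hg using hmem
      have hginj : Function.Injective g := by
        intro x y hxy
        apply hfinj
        rw [← hg x, ← hg y, hxy]
      let π : Equiv.Perm n := Equiv.ofBijective g (Finite.injective_iff_bijective.mp hginj)
      refine ⟨π, Finset.mem_univ _, ?_⟩
      funext a
      exact hg a
    · intro π _
      rfl
  rw [hsum]
  have hperm : ∀ π : Equiv.Perm n, weightF b (f₀ ∘ π)
      = (rowsM b f₀).det * (((Equiv.Perm.sign π : ℤ) : R) * ∏ a, rowsM b f₀ (π a) a) := by
    intro π
    unfold weightF
    have h1 : rowsM b (f₀ ∘ π) = (rowsM b f₀).submatrix π id := by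
      ext a c
      rfl
    rw [h1, Matrix.det_permute]
    have h2 : ∏ a, b ((f₀ ∘ π) a) a = ∏ a, rowsM b f₀ (π a) a := rfl
    rw [h2]
    ring
  simp_rw [hperm]
  rw [← Finset.mul_sum, pow_two]
  congr 1
  rw [Matrix.det_apply' (rowsM b f₀)]

end Crest.Agent.Lib.UST
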