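import Crest.Agent.Lib.UST.CauchyBinet
import Crest.Agent.Lib.SRFlow.Window

/-!
# Kirchhoff's theorem and the stability of the spanning tree polynomial
-/

set_option autoImplicit false
set_option linter.unusedSectionVars false
set_option linter.unusedSimpArgs false
set_option linter.unusedVariables false

namespace Crest.Agent.Lib.UST

open Finset Matrix SimpleGraph

/-- The signed incidence vector of a pair of naturals. -/
noncomputable def bv (e : Sym2 ℕ) (w : ℕ) : ℂ :=
  (if w = e.inf then 1 else 0) - (if w = e.sup then 1 else 0)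

lemma bv_eq_zero {u v w : ℕ} (hu : w ≠ u) (hv : w ≠ v) : bv s(u, v) w = 0 := by
  unfold bv
  simp only [Sym2.inf_mk, Sym2.sup_mk]
  rcases le_total u v with h | h
  · simp [h, hu, hv]
  · simp [h, hu, hv]

lemma bv_left {u v : ℕ} (huv : u ≠ v) : bv s(u, v) u = 1 ∨ bv s(u, v) u = -1 := by
  unfold bv
  simp only [Sym2.inf_mk, Sym2.sup_mk]
  rcases lt_or_gt_of_ne huv with h | h
  · left
    simp [h.le, huv]
  · right
    simp [h.le, huv]

lemma bv_add {u v : ℕ} (huv : u ≠ v) : bv s(u, v) u + bv s(u, v) v = 0 := by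
  unfold bv
  simp only [Sym2.inf_mk, Sym2.sup_mk]
  rcases lt_or_gt_of_ne huv with h | h
  · simp [h.le, huv, huv.symm]
  · simp [h.le, huv, huv.symm]

lemma bv_left_ne_zero {u v : ℕ} (huv : u ≠ v) : bv s(u, v) u ≠ 0 := by
  rcases bv_left huv with h | h <;> rw [h] <;> norm_num

lemma bv_left_sq {u v : ℕ} (huv : u ≠ v) : bv s(u, v) u ^ 2 = 1 := by
  rcases bv_left huv with h | h <;> rw [h] <;> norm_num

lemma star_bv (e : Sym2 ℕ) (w : ℕ) : star (bv e w) = bv e w := by
  unfold bv
  simp only [star_sub]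
  congr 1 <;> split_ifs <;> simp

/-- `A` connects the vertices of `V`. -/
def ConnOn (V : Finset ℕ) (A : Finset (Sym2 ℕ)) : Prop :=
  ∀ x ∈ V, ∀ y ∈ V, (fromEdgeSet (A : Set (Sym2 ℕ))).Reachable x y

open scoped Classical in
/-- The edge sets of the spanning trees of the graph `(V, Ed)`. -/
noncomputable def TreesOn (V : Finset ℕ) (Ed : Finset (Sym2 ℕ)) : Finset (Finset (Sym2 ℕ)) :=
  Ed.powerset.filter fun A => ConnOn V A ∧ A.card + 1 = V.card

/-- `Ed` is a set of proper edges with all endpoints in `V`. -/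
def EdOK (V : Finset ℕ) (Ed : Finset (Sym2 ℕ)) : Prop :=
  ∀ e ∈ Ed, ¬ e.IsDiag ∧ ∀ x ∈ e, x ∈ V

section Reduced

variable {V : Finset ℕ} {r : ℕ} {Ed : Finset (Sym2 ℕ)}

/-- Extension by zero of a vector on the reduced vertex set. -/
noncomputable def yext (y : ↥(V.erase r) → ℂ) (w : ℕ) : ℂ :=
  if h : w ∈ V.erase r then y ⟨w, h⟩ else 0

lemma sum_bv (y : ↥(V.erase r) → ℂ) {u v : ℕ} (huv : u ≠ v) :
    ∑ a : ↥(V.erase r), bv s(u, v) a * y a
      = bv s(u, v) u * yext y u + bv s(u, v) v * yext y v := by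
  set g : ℕ → ℂ := fun a => bv s(u, v) a * yext y a with hg
  have h0 : ∑ a : ↥(V.erase r), bv s(u, v) a * y a = ∑ a : ↥(V.erase r), g a := by
    refine Finset.sum_congr rfl fun a _ => ?_
    have h3 : yext y (a : ℕ) = y a := by
      unfold yext
      rw [dif_pos a.2]
    simp only [hg, h3]
  rw [h0, Finset.sum_coe_sort (V.erase r) g]
  have h1 : ∑ a ∈ V.erase r, g a = ∑ a ∈ (V.erase r) ∪ {u, v}, g a := by
    refine Finset.sum_subset Finset.subset_union_left fun a _ ha => ?_
    simp only [hg, yext, dif_neg ha, mul_zero]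
  have h2 : ∑ a ∈ ({u, v} : Finset ℕ), g a = ∑ a ∈ (V.erase r) ∪ {u, v}, g a := by
    refine Finset.sum_subset Finset.subset_union_right fun a _ ha => ?_
    simp only [Finset.mem_insert, Finset.mem_singleton, not_or] at ha
    simp only [hg, bv_eq_zero ha.1 ha.2, zero_mul]
  rw [h1, ← h2, Finset.sum_pair huv]

lemma yext_of_not_mem (y : ↥(V.erase r) → ℂ) : yext y r = 0 := by
  unfold yext
  rw [dif_neg]
  simp

/-- The reduced weighted Laplacian. -/
noncomputable def Lap (V : Finset ℕ) (r : ℕ) (Ed : Finset (Sym2 ℕ)) (z : Sym2 ℕ → ℂ) :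
    Matrix ↥(V.erase r) ↥(V.erase r) ℂ :=
  Matrix.of fun a c => ∑ e : ↥Ed, z e * bv e a * bv e c

/-- The reduced incidence vectors. -/
noncomputable def bR (V : Finset ℕ) (r : ℕ) (Ed : Finset (Sym2 ℕ)) :
    ↥Ed → ↥(V.erase r) → ℂ := fun e a => bv e a

/-- Invertibility of the reduced Laplacian on the generalised upper half plane. -/
theorem det_Lap_ne_zero (hr : r ∈ V) (hEd : EdOK V Ed) (hconn : ConnOn V Ed) {z : Sym2 ℕ → ℂ}
    (hz : ∀ e ∈ Ed, 0 < (z e).im ∨ ((z e).im = 0 ∧ 0 < (z e).re)) :
    (Lap V r Ed z).det ≠ 0 := by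
  intro h0
  obtain ⟨y, hy, hL⟩ := Matrix.exists_mulVec_eq_zero_iff.mpr h0
  let q : ↥Ed → ℂ := fun e => ∑ a : ↥(V.erase r), bv e a * y a
  have hLa : ∀ a : ↥(V.erase r), ∑ e : ↥Ed, z e * bv e a * q e = 0 := by
    intro a
    have h1 := congrFun hL a
    simp only [Matrix.mulVec, dotProduct, Lap, Matrix.of_apply, Pi.zero_apply, Finset.sum_mul] at h1
    rw [Finset.sum_comm] at h1
    rw [← h1]
    refine Finset.sum_congr rfl fun e _ => ?_
    simp only [q]
    rw [Finset.mul_sum]
    refine Finset.sum_congr rfl fun c _ => ?_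
    ring
  have hstar : ∀ e : ↥Ed, star (q e) = ∑ a : ↥(V.erase r), bv e a * star (y a) := by
    intro e
    simp only [q]
    rw [star_sum]
    refine Finset.sum_congr rfl fun a _ => ?_
    rw [star_mul', star_bv]
  have hquad : ∑ e : ↥Ed, z e * ((Complex.normSq (q e) : ℝ) : ℂ) = 0 := by
    have h2 : ∑ a : ↥(V.erase r), star (y a) * ∑ e : ↥Ed, z e * bv e a * q e = 0 :=
      Finset.sum_eq_zero fun a _ => by rw [hLa a, mul_zero]
    rw [← h2]
    simp_rw [Finset.mul_sum]
    rw [Finset.sum_comm]
    refine Finset.sum_congr rfl fun e _ => ?_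
    rw [Complex.normSq_eq_conj_mul_self]
    have h3 : (starRingEnd ℂ) (q e) = star (q e) := rfl
    rw [h3, hstar, Finset.sum_mul, Finset.mul_sum]
    refine Finset.sum_congr rfl fun a _ => ?_
    ring
  have him : ∑ e : ↥Ed, (z e).im * Complex.normSq (q e) = 0 := by
    have := congrArg Complex.im hquad
    simpa [Complex.im_sum] using this
  have hre : ∑ e : ↥Ed, (z e).re * Complex.normSq (q e) = 0 := by
    have := congrArg Complex.re hquad
    simpa [Complex.re_sum] using this
  have hn0 : ∀ e : ↥Ed, 0 ≤ Complex.normSq (q e) := fun e => Complex.normSq_nonneg _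
  have hzim : ∀ e : ↥Ed, 0 ≤ (z e).im := fun e => by
    rcases hz e e.2 with h | h
    · exact h.le
    · exact h.1.ge
  have h1 : ∀ e : ↥Ed, (z e).im * Complex.normSq (q e) = 0 := by
    have := (Finset.sum_eq_zero_iff_of_nonneg fun e _ => mul_nonneg (hzim e) (hn0 e)).mp him
    exact fun e => this e (Finset.mem_univ e)
  have h2 : ∀ e : ↥Ed, 0 ≤ (z e).re * Complex.normSq (q e) := by
    intro e
    rcases hz e e.2 with h | h
    · have : Complex.normSq (q e) = 0 := by
        have h3 := h1 e
        rcases mul_eq_zero.mp h3 with h4 | h4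
        · linarith
        · exact h4
      rw [this, mul_zero]
    · exact mul_nonneg h.2.le (hn0 e)
  have h3 : ∀ e : ↥Ed, (z e).re * Complex.normSq (q e) = 0 := by
    have := (Finset.sum_eq_zero_iff_of_nonneg fun e _ => h2 e).mp hre
    exact fun e => this e (Finset.mem_univ e)
  have hq : ∀ e : ↥Ed, q e = 0 := by
    intro e
    have : Complex.normSq (q e) = 0 := by
      rcases hz e e.2 with h | h
      · rcases mul_eq_zero.mp (h1 e) with h4 | h4
        · linarith
        · exact h4
      · rcases mul_eq_zero.mp (h3 e) with h4 | h4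
        · linarith [h.2]
        · exact h4
    exact Complex.normSq_eq_zero.mp this
  -- the extended vector is constant along the edges
  have hedge : ∀ u v : ℕ, (fromEdgeSet (Ed : Set (Sym2 ℕ))).Adj u v → yext y u = yext y v := by
    intro u v huv
    rw [fromEdgeSet_adj] at huv
    have h4 := hq ⟨s(u, v), huv.1⟩
    simp only [q] at h4
    rw [sum_bv y huv.2] at h4
    have h5 : bv s(u, v) v = - bv s(u, v) u := by
      have := bv_add huv.2
      linear_combination this
    rw [h5] at h4
    have h6 : bv s(u, v) u * (yext y u - yext y v) = 0 := by linear_combination h4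
    rcases mul_eq_zero.mp h6 with h7 | h7
    · exact absurd h7 (bv_left_ne_zero huv.2)
    · linear_combination h7
  have hwalk : ∀ {u v : ℕ}, (fromEdgeSet (Ed : Set (Sym2 ℕ))).Walk u v → yext y u = yext y v := by
    intro u v p
    induction p with
    | nil => rfl
    | cons h _ ih => exact (hedge _ _ h).trans ih
  apply hy
  funext a
  have h4 : (a : ℕ) ∈ V := Finset.mem_of_mem_erase a.2
  obtain ⟨p⟩ := hconn r hr a h4
  have h5 := hwalk p
  rw [yext_of_not_mem] at h5
  have h6 : yext y (a : ℕ) = y a := by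
    unfold yext
    rw [dif_pos a.2]
  rw [Pi.zero_apply, ← h6, ← h5]

/-- A vertex different from the root has a neighbour closer to the root. -/
lemma exists_parent {H : SimpleGraph ℕ} {x r : ℕ} (hne : x ≠ r) (h : H.Reachable x r) :
    ∃ u : ℕ, H.Adj x u ∧ H.dist u r < H.dist x r := by
  obtain ⟨p, hp⟩ := h.exists_walk_length_eq_dist
  cases p with
  | nil => exact absurd rfl hne
  | @cons _ u _ h q =>
    refine ⟨u, h, ?_⟩
    have h5 : H.dist u r ≤ q.length := SimpleGraph.dist_le q
    have h6 : (Walk.cons h q).length = q.length + 1 := rfl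
    omega

/-- In a connected graph with the minimal number of edges the coefficient is one. -/
lemma kap_conn (hr : r ∈ V) (hEd : EdOK V Ed) {A : Finset ↥Ed}
    (hconn : ConnOn V (A.map (Function.Embedding.subtype _)))
    (hcard : A.card + 1 = V.card) : kap (bR V r Ed) A = 1 := by
  classical
  set A' := A.map (Function.Embedding.subtype _) with hA'
  set H := fromEdgeSet (A' : Set (Sym2 ℕ)) with hH
  have hcardn : Fintype.card ↥(V.erase r) = A.card := by
    rw [Fintype.card_coe, Finset.card_erase_of_mem hr]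
    omega
  -- parents
  have hpar : ∀ a : ↥(V.erase r), ∃ u : ℕ, H.Adj a u ∧ H.dist u r < H.dist a r := by
    intro a
    have h4 : (a : ℕ) ∈ V := Finset.mem_of_mem_erase a.2
    have hne : (a : ℕ) ≠ r := Finset.ne_of_mem_erase a.2
    exact exists_parent hne (hconn a h4 r hr)
  choose par hadj hd using hpar
  have hmem : ∀ a : ↥(V.erase r), s((a : ℕ), par a) ∈ A' := by
    intro a
    have := hadj a
    rw [hH, fromEdgeSet_adj] at this
    exact this.1
  have hmemEd : ∀ a : ↥(V.erase r), s((a : ℕ), par a) ∈ Ed := by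
    intro a
    obtain ⟨e, _, he⟩ := Finset.mem_map.mp (hmem a)
    rw [← he]
    exact e.2
  let f₀ : ↥(V.erase r) → ↥Ed := fun a => ⟨s((a : ℕ), par a), hmemEd a⟩
  have hf₀mem : ∀ a, f₀ a ∈ A := by
    intro a
    obtain ⟨e, he, hee⟩ := Finset.mem_map.mp (hmem a)
    have : e = f₀ a := Subtype.ext hee
    rwa [← this]
  have hf₀inj : Function.Injective f₀ := by
    intro a c hac
    have h1 : s((a : ℕ), par a) = s((c : ℕ), par c) := congrArg Subtype.val hac
    rw [Sym2.eq_iff] at h1
    rcases h1 with h1 | h1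
    · exact Subtype.ext h1.1
    · exfalso
      have h2 := hd a
      have h3 := hd c
      rw [h1.2] at h2
      rw [← h1.1] at h3
      omega
  have himg : Finset.univ.image f₀ = A := by
    refine Finset.eq_of_subset_of_card_le ?_ ?_
    · intro x hx
      obtain ⟨a, _, rfl⟩ := Finset.mem_image.mp hx
      exact hf₀mem a
    · rw [Finset.card_image_of_injective _ hf₀inj, Finset.card_univ, hcardn]
  rw [← himg, kap_of_injective _ hf₀inj]
  -- triangularity
  set M := rowsM (bR V r Ed) f₀ with hM
  have hMval : ∀ a c : ↥(V.erase r), M a c = bv s((a : ℕ), par a) c := fun a c => rfl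
  have hne : ∀ a : ↥(V.erase r), (a : ℕ) ≠ par a := fun a => (hadj a).ne
  have htri : ∀ a c : ↥(V.erase r), M a c ≠ 0 → a = c ∨ H.dist c r < H.dist a r := by
    intro a c hac
    rw [hMval] at hac
    by_cases h1 : (c : ℕ) = a
    · left
      exact (Subtype.ext h1).symm
    · right
      by_cases h2 : (c : ℕ) = par a
      · rw [h2]
        exact hd a
      · exact absurd (bv_eq_zero h1 h2) hac
  have hperm : ∀ π : Equiv.Perm ↥(V.erase r), π ≠ 1 → ∏ a, M (π a) a = 0 := by
    intro π hπ
    by_contra hprod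
    have hall : ∀ a, M (π a) a ≠ 0 := fun a h => hprod (Finset.prod_eq_zero (Finset.mem_univ a) h)
    have hle : ∀ a : ↥(V.erase r), H.dist (a : ℕ) r ≤ H.dist (π a : ℕ) r := by
      intro a
      rcases htri _ _ (hall a) with h | h
      · rw [h]
      · exact h.le
    obtain ⟨a₀, ha₀⟩ : ∃ a, π a ≠ a := by
      by_contra hcon
      push Not at hcon
      exact hπ (Equiv.ext hcon)
    have hlt : H.dist (a₀ : ℕ) r < H.dist (π a₀ : ℕ) r := by
      rcases htri _ _ (hall a₀) with h | h
      · exact absurd h ha₀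
      · exact h
    have hsum := Finset.sum_lt_sum (s := Finset.univ) (fun a _ => hle a) ⟨a₀, Finset.mem_univ _, hlt⟩
    have heq : ∑ a : ↥(V.erase r), H.dist (π a : ℕ) r = ∑ a : ↥(V.erase r), H.dist (a : ℕ) r :=
      Equiv.sum_comp π fun a : ↥(V.erase r) => H.dist (a : ℕ) r
    omega
  have hdet : M.det = ∏ a, M a a := by
    rw [Matrix.det_apply']
    rw [Finset.sum_eq_single 1]
    · simp
    · intro π _ hπ
      rw [hperm π hπ, mul_zero]
    · intro h
      exact absurd (Finset.mem_univ _) h
  rw [hdet, ← Finset.prod_pow]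
  refine Finset.prod_eq_one fun a _ => ?_
  rw [hMval]
  exact bv_left_sq (hne a)

/-- In a disconnected graph the coefficient vanishes. -/
lemma kap_disconn (hr : r ∈ V) (hEd : EdOK V Ed) {A : Finset ↥Ed}
    (hconn : ¬ ConnOn V (A.map (Function.Embedding.subtype _))) : kap (bR V r Ed) A = 0 := by
  classical
  by_cases hcard : A.card = Fintype.card ↥(V.erase r)
  swap
  · exact kap_of_card_ne _ hcard
  set A' := A.map (Function.Embedding.subtype _) with hA'
  set H := fromEdgeSet (A' : Set (Sym2 ℕ)) with hH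
  have hequiv : ↥(V.erase r) ≃ ↥A := Fintype.equivOfCardEq (by
    rw [Fintype.card_coe A]
    exact hcard.symm)
  let f₀ : ↥(V.erase r) → ↥Ed := fun a => (hequiv a : ↥Ed)
  have hf₀inj : Function.Injective f₀ := fun a c hac =>
    hequiv.injective (Subtype.ext hac)
  have himg : Finset.univ.image f₀ = A := by
    ext x
    simp only [Finset.mem_image, Finset.mem_univ, true_and]
    constructor
    · rintro ⟨a, rfl⟩
      exact (hequiv a).2
    · intro hx
      exact ⟨hequiv.symm ⟨x, hx⟩, by simp [f₀]⟩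
  rw [← himg, kap_of_injective _ hf₀inj]
  have hzero : (rowsM (bR V r Ed) f₀).det = 0 := by
    -- a vertex which is not reachable from the root
    obtain ⟨x, hx, hxr⟩ : ∃ x ∈ V, ¬ H.Reachable r x := by
      by_contra hcon
      push Not at hcon
      exact hconn fun a ha b hb => ((hcon a ha).symm).trans (hcon b hb)
    have hxne : x ≠ r := fun h => hxr (h ▸ Reachable.refl _)
    let y : ↥(V.erase r) → ℂ := fun a => if H.Reachable r a then 0 else 1
    have hy : y ≠ 0 := by
      intro h
      have := congrFun h ⟨x, Finset.mem_erase.mpr ⟨hxne, hx⟩⟩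
      simp only [y, Pi.zero_apply, hxr, if_false] at this
      exact one_ne_zero this
    refine Matrix.exists_mulVec_eq_zero_iff.mp ⟨y, hy, ?_⟩
    funext a
    simp only [Matrix.mulVec, dotProduct, Pi.zero_apply]
    have hfa : ((f₀ a : ↥Ed) : Sym2 ℕ) ∈ A' := by
      refine Finset.mem_map.mpr ⟨f₀ a, (hequiv a).2, rfl⟩
    obtain ⟨u, v, huvE⟩ : ∃ u v, ((f₀ a : ↥Ed) : Sym2 ℕ) = s(u, v) := by
      have hex : ∀ e : Sym2 ℕ, ∃ u v, e = s(u, v) := by
        intro e
        induction e with
        | _ u v => exact ⟨u, v, rfl⟩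
      exact hex _
    have hok := hEd _ (f₀ a).2
    rw [huvE] at hok hfa
    have huv : u ≠ v := fun h => hok.1 (by simp [h])
    have huV : u ∈ V := hok.2 u (Sym2.mem_mk_left u v)
    have hvV : v ∈ V := hok.2 v (Sym2.mem_mk_right u v)
    have hadj : H.Adj u v := by
      rw [hH, fromEdgeSet_adj]
      exact ⟨hfa, huv⟩
    have hrow : ∀ c : ↥(V.erase r), rowsM (bR V r Ed) f₀ a c = bv s(u, v) c := by
      intro c
      simp only [rowsM, bR, Matrix.of_apply, huvE]
    simp_rw [hrow]
    rw [sum_bv y huv]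
    have hval : ∀ w ∈ V, yext y w = if H.Reachable r w then 0 else 1 := by
      intro w hw
      unfold yext
      by_cases hwr : w = r
      · subst hwr
        simp
      · rw [dif_pos (Finset.mem_erase.mpr ⟨hwr, hw⟩)]
    rw [hval u huV, hval v hvV]
    have hiff : H.Reachable r u ↔ H.Reachable r v :=
      ⟨fun h => h.trans hadj.reachable, fun h => h.trans hadj.symm.reachable⟩
    have h5 : bv s(u, v) v = - bv s(u, v) u := by
      have := bv_add huv
      linear_combination this
    rw [h5]
    by_cases h6 : H.Reachable r u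
    · simp [h6, hiff.mp h6]
    · have h7 : ¬ H.Reachable r v := fun h => h6 (hiff.mpr h)
      simp [h6, h7]
  rw [hzero]
  norm_num

/-- **Kirchhoff's theorem** for the weighted reduced Laplacian. -/
theorem det_Lap (hr : r ∈ V) (hEd : EdOK V Ed) (z : Sym2 ℕ → ℂ) :
    (Lap V r Ed z).det = ∑ A ∈ TreesOn V Ed, ∏ e ∈ A, z e := by
  classical
  have h1 : Lap V r Ed z = (Matrix.of fun a c => ∑ e : ↥Ed, (fun e : ↥Ed => z e) e
      * bR V r Ed e a * bR V r Ed e c) := rfl
  rw [h1, det_eq_sum_kap]
  unfold TreesOn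
  rw [Finset.sum_filter]
  rw [← Crest.Agent.Lib.SRFlow.sum_powerset_eq]
  refine Finset.sum_congr rfl fun A _ => ?_
  have hcardA : (A.map (Function.Embedding.subtype _)).card = A.card := Finset.card_map _
  rw [Finset.prod_map]
  by_cases hconn : ConnOn V (A.map (Function.Embedding.subtype _))
  · by_cases hcard : A.card + 1 = V.card
    · rw [kap_conn hr hEd hconn hcard, if_pos ⟨hconn, by rw [hcardA]; exact hcard⟩, mul_one]
      rfl
    · have h2 : A.card ≠ Fintype.card ↥(V.erase r) := by
        rw [Fintype.card_coe, Finset.card_erase_of_mem hr]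
        have : 0 < V.card := Finset.card_pos.mpr ⟨r, hr⟩
        omega
      rw [kap_of_card_ne _ h2, mul_zero, if_neg]
      rintro ⟨_, h3⟩
      rw [hcardA] at h3
      exact hcard h3
  · rw [kap_disconn hr hEd hconn, mul_zero, if_neg]
    rintro ⟨h3, _⟩
    exact hconn h3

/-- The spanning tree polynomial does not vanish on the generalised upper half plane. -/
theorem tree_poly_ne_zero (hV : V.Nonempty) (hEd : EdOK V Ed) (hconn : ConnOn V Ed)
    {z : Sym2 ℕ → ℂ} (hz : ∀ e ∈ Ed, 0 < (z e).im ∨ ((z e).im = 0 ∧ 0 < (z e).re)) :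
    ∑ A ∈ TreesOn V Ed, ∏ e ∈ A, z e ≠ 0 := by
  obtain ⟨r, hr⟩ := hV
  rw [← det_Lap hr hEd z]
  exact det_Lap_ne_zero hr hEd hconn hz

/-- A connected graph has a spanning tree. -/
theorem TreesOn_nonempty (hV : V.Nonempty) (hEd : EdOK V Ed) (hconn : ConnOn V Ed) :
    (TreesOn V Ed).Nonempty := by
  by_contra h
  rw [Finset.not_nonempty_iff_eq_empty] at h
  have := tree_poly_ne_zero (z := fun _ => 1) hV hEd hconn (fun e _ => Or.inr (by simp))
  rw [h] at this
  simp at this

end Reduced

end Crest.Agent.Lib.UST
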