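import Crest.Agent.Lib.UST.Marginal

/-!
# The free limit of the uniform spanning trees as a consistent system
-/

set_option autoImplicit false
set_option linter.unusedSectionVars false
set_option linter.unusedSimpArgs false
set_option linter.unusedVariables false

namespace Crest.Agent.Lib.UST

open Finset Filter SimpleGraph Crest.Agent.Lib.SRFlow Crest.ProbabilityR.SpanningTrees Topology

open scoped Classical

/-- The pieces used in the infimum defining the free limit. -/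
def PieceOK (V : Finset ℕ) (Ed A : Finset (Sym2 ℕ)) : Prop :=
  V.Nonempty ∧ ConnOn V Ed ∧ ∀ e ∈ A, ∀ x ∈ e, x ∈ V

/-- The probability on a piece, capped by `1` for the pieces that are not admissible. -/
noncomputable def tV (V : Finset ℕ) (Ed A : Finset (Sym2 ℕ)) : ℝ :=
  if PieceOK V Ed A then ustG V Ed A else 1

lemma tV_nonneg (V : Finset ℕ) (Ed A : Finset (Sym2 ℕ)) : 0 ≤ tV V Ed A := by
  unfold tV
  split_ifs
  · exact ustG_nonneg _ _ _
  · exact zero_le_one

lemma tV_le_one (V : Finset ℕ) (Ed A : Finset (Sym2 ℕ)) : tV V Ed A ≤ 1 := by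
  unfold tV
  split_ifs
  · exact ustG_le_one _ _ _
  · exact le_rfl

/-- The free limit of the probability of containing `A`. -/
noncomputable def pG (G : SimpleGraph ℕ) (A : Finset (Sym2 ℕ)) : ℝ :=
  ⨅ V : Finset ℕ, tV V (edgesIn G V) A

/-- The free limit of the probability of meeting `F` in `Q`. -/
noncomputable def cG (G : SimpleGraph ℕ) (F Q : Finset (Sym2 ℕ)) : ℝ :=
  if Q ⊆ F then ∑ F' ∈ (F \ Q).powerset, (-1 : ℝ) ^ F'.card * pG G (Q ∪ F') else 0

lemma bdd_tV (G : SimpleGraph ℕ) (A : Finset (Sym2 ℕ)) :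
    BddBelow (Set.range fun V : Finset ℕ => tV V (edgesIn G V) A) :=
  ⟨0, by
    rintro _ ⟨V, rfl⟩
    exact tV_nonneg _ _ _⟩

/-- An exhaustion by finite connected pieces. -/
structure Exh (G : SimpleGraph ℕ) (S : ℕ → Finset ℕ) : Prop where
  mono : Monotone S
  cover : ∀ v, ∃ n, v ∈ S n
  ne : ∀ n, (S n).Nonempty
  conn : ∀ n, ConnOn (S n) (edgesIn G (S n))

lemma Exh.exists_subset {G : SimpleGraph ℕ} {S : ℕ → Finset ℕ} (h : Exh G S) (V : Finset ℕ) :
    ∃ N, ∀ n, N ≤ n → V ⊆ S n := by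
  induction V using Finset.induction_on with
  | empty => exact ⟨0, fun n _ => Finset.empty_subset _⟩
  | insert a s _ ih =>
    obtain ⟨N₁, hN₁⟩ := ih
    obtain ⟨N₂, hN₂⟩ := h.cover a
    refine ⟨max N₁ N₂, fun n hn => ?_⟩
    rw [Finset.insert_subset_iff]
    exact ⟨h.mono ((le_max_right _ _).trans hn) hN₂, hN₁ n ((le_max_left _ _).trans hn)⟩

lemma edgesIn_mono (G : SimpleGraph ℕ) {V V' : Finset ℕ} (h : V ⊆ V') :
    edgesIn G V ⊆ edgesIn G V' := by
  intro e he
  rw [mem_edgesIn] at he ⊢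
  exact ⟨fun x hx => h (he.1 x hx), he.2⟩

/-- Monotonicity for the induced pieces of a graph. -/
lemma ustG_piece_mono {G : SimpleGraph ℕ} {V V' : Finset ℕ} {A : Finset (Sym2 ℕ)} (hV : V.Nonempty)
    (hconn : ConnOn V (edgesIn G V)) (hconn' : ConnOn V' (edgesIn G V')) (hVV' : V ⊆ V')
    (hA : ∀ e ∈ A, ∀ x ∈ e, x ∈ V) :
    ustG V' (edgesIn G V') A ≤ ustG V (edgesIn G V) A := by
  by_cases h : A ⊆ edgesIn G V
  · exact ustG_mono hV (edOK_edgesIn G V) hconn (edOK_edgesIn G V') hconn' hVV'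
      (edgesIn_mono G hVV') h
  · have h' : ¬ A ⊆ edgesIn G V' := by
      intro h2
      apply h
      intro e he
      have h3 := h2 he
      rw [mem_edgesIn] at h3 ⊢
      exact ⟨hA e he, h3.2⟩
    rw [ustG_eq_zero h']
    exact ustG_nonneg _ _ _

/-- The vertices of a finite set of pairs. -/
noncomputable def vx (A : Finset (Sym2 ℕ)) : Finset ℕ := A.biUnion fun e => e.toFinset

lemma mem_vx {A : Finset (Sym2 ℕ)} {e : Sym2 ℕ} (he : e ∈ A) {x : ℕ} (hx : x ∈ e) : x ∈ vx A := by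
  unfold vx
  rw [Finset.mem_biUnion]
  exact ⟨e, he, by simpa using hx⟩

/-- The probabilities along any exhaustion tend to the free limit. -/
theorem tendsto_pG {G : SimpleGraph ℕ} {S : ℕ → Finset ℕ} (h : Exh G S) (A : Finset (Sym2 ℕ)) :
    Tendsto (fun n => ustG (S n) (edgesIn G (S n)) A) atTop (𝓝 (pG G A)) := by
  obtain ⟨N₀, hN₀⟩ := h.exists_subset (vx A)
  have hsupp : ∀ n, N₀ ≤ n → ∀ e ∈ A, ∀ x ∈ e, x ∈ S n :=
    fun n hn e he x hx => hN₀ n hn (mem_vx he hx)
  set a : ℕ → ℝ := fun n => ustG (S (n + N₀)) (edgesIn G (S (n + N₀))) A with ha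
  have hanti : Antitone a := by
    intro i j hij
    exact ustG_piece_mono (h.ne _) (h.conn _) (h.conn _) (h.mono (by omega))
      (hsupp _ (by omega))
  have hbdd : BddBelow (Set.range a) :=
    ⟨0, by
      rintro _ ⟨n, rfl⟩
      exact ustG_nonneg _ _ _⟩
  have hlim := tendsto_atTop_ciInf hanti hbdd
  have heq : ⨅ i, a i = pG G A := by
    apply le_antisymm
    · refine le_ciInf fun V => ?_
      by_cases hV : PieceOK V (edgesIn G V) A
      · obtain ⟨N, hN⟩ := h.exists_subset V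
        have h1 : ⨅ i, a i ≤ a N := ciInf_le hbdd N
        have h2 : a N ≤ tV V (edgesIn G V) A := by
          unfold tV
          rw [if_pos hV]
          exact ustG_piece_mono hV.1 hV.2.1 (h.conn _) (hN _ (by omega)) hV.2.2
        exact h1.trans h2
      · unfold tV
        rw [if_neg hV]
        exact (ciInf_le hbdd 0).trans (ustG_le_one _ _ _)
    · refine le_ciInf fun i => ?_
      have h1 := ciInf_le (bdd_tV G A) (S (i + N₀))
      have h2 : tV (S (i + N₀)) (edgesIn G (S (i + N₀))) A = a i := by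
        unfold tV
        rw [if_pos ⟨h.ne _, h.conn _, hsupp _ (by omega)⟩]
      rw [h2] at h1
      exact h1
  rw [heq] at hlim
  exact (Filter.tendsto_add_atTop_iff_nat N₀).mp hlim

/-- The window marginals along any exhaustion tend to the free limit. -/
theorem tendsto_cw {G : SimpleGraph ℕ} {S : ℕ → Finset ℕ} (h : Exh G S) (F Q : Finset (Sym2 ℕ)) :
    Tendsto (fun n => cw (S n) (edgesIn G (S n)) F Q) atTop (𝓝 (cG G F Q)) := by
  unfold cG
  by_cases hQ : Q ⊆ F
  · rw [if_pos hQ]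
    simp_rw [cw_eq_sum _ _ hQ]
    exact tendsto_finset_sum _ fun F' _ => (tendsto_pG h _).const_mul _
  · rw [if_neg hQ]
    simp_rw [cw_of_not_subset _ _ hQ]
    exact tendsto_const_nhds

section Cov

variable {ι : Type*} [Fintype ι] [DecidableEq ι]

lemma tendsto_Et {cn : ℕ → Finset ι → ℝ} {c : Finset ι → ℝ}
    (hlim : ∀ S, Tendsto (fun n => cn n S) atTop (𝓝 (c S))) (hc : Adm c) (h : ι → ℝ)
    (f : Finset ι → ℝ) : Tendsto (fun n => Et (cn n) h f) atTop (𝓝 (Et c h f)) := by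
  unfold Et Zt wt
  refine Tendsto.div ?_ ?_ ?_
  · exact tendsto_finset_sum _ fun S _ => ((hlim S).mul_const _).mul_const _
  · exact tendsto_finset_sum _ fun S _ => (hlim S).mul_const _
  · exact (Zt_pos hc h).ne'

lemma tendsto_Covt {cn : ℕ → Finset ι → ℝ} {c : Finset ι → ℝ}
    (hlim : ∀ S, Tendsto (fun n => cn n S) atTop (𝓝 (c S))) (hc : Adm c) (h : ι → ℝ)
    (f g : Finset ι → ℝ) : Tendsto (fun n => Covt (cn n) h f g) atTop (𝓝 (Covt c h f g)) := by
  unfold Covt
  exact (tendsto_Et hlim hc h _).sub ((tendsto_Et hlim hc h _).mul (tendsto_Et hlim hc h _))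

end Cov

/-- The free limit is a consistent system with the covariance bound. -/
theorem srSys_cG {G : SimpleGraph ℕ} {S : ℕ → Finset ℕ} (h : Exh G S) : SRSys (cG G) := by
  have hn : ∀ F Q, 0 ≤ cG G F Q := fun F Q =>
    ge_of_tendsto' (tendsto_cw h F Q) fun n => cw_nonneg _ _ _ _
  have hs : ∀ F : Finset (Sym2 ℕ), ∑ Q ∈ F.powerset, cG G F Q = 1 := by
    intro F
    have h1 : Tendsto (fun n => ∑ Q ∈ F.powerset, cw (S n) (edgesIn G (S n)) F Q) atTop
        (𝓝 (∑ Q ∈ F.powerset, cG G F Q)) :=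
      tendsto_finset_sum _ fun Q _ => tendsto_cw h F Q
    have h2 : (fun n => ∑ Q ∈ F.powerset, cw (S n) (edgesIn G (S n)) F Q) = fun _ => (1 : ℝ) := by
      funext n
      exact sum_cw (h.ne n) (edOK_edgesIn G _) (h.conn n) F
    rw [h2] at h1
    exact tendsto_nhds_unique h1 tendsto_const_nhds
  refine ⟨hn, hs, ?_, ?_⟩
  · intro F F' hFF' T _
    have h1 : Tendsto (fun n => ∑ S' ∈ F'.powerset with S' ∩ F = T, cw (S n) (edgesIn G (S n)) F' S')
        atTop (𝓝 (∑ S' ∈ F'.powerset with S' ∩ F = T, cG G F' S')) :=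
      tendsto_finset_sum _ fun Q _ => tendsto_cw h F' Q
    have h2 : (fun n => ∑ S' ∈ F'.powerset with S' ∩ F = T, cw (S n) (edgesIn G (S n)) F' S')
        = fun n => cw (S n) (edgesIn G (S n)) F T := by
      funext n
      exact (cw_consistent _ _ hFF' T).symm
    rw [h2] at h1
    exact tendsto_nhds_unique (tendsto_cw h F T) h1
  · intro F k e
    have hadm : Adm (wc (cG G F) F) := by
      refine ⟨fun _ => hn _ _, ?_⟩
      have h1 : ∑ S', wc (cG G F) F S' = 1 := by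
        rw [← hs F, ← sum_powerset_eq]
        rfl
      rw [h1]
      exact zero_lt_one
    have hlim : ∀ S' : Finset ↥F, Tendsto (fun n => wc (cw (S n) (edgesIn G (S n)) F) F S') atTop
        (𝓝 (wc (cG G F) F S')) := fun S' => tendsto_cw h F _
    have h1 : Tendsto (fun n => ∑ i, |Covt (wc (cw (S n) (edgesIn G (S n)) F) F) k (ind e) (ind i)|)
        atTop (𝓝 (∑ i, |Covt (wc (cG G F) F) k (ind e) (ind i)|)) :=
      tendsto_finset_sum _ fun i _ => (tendsto_Covt hlim hadm k _ _).abs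
    refine le_of_tendsto' h1 fun n => ?_
    have hst := stab_cw (h.ne n) (edOK_edgesIn G _) (h.conn n) F
    have hadmn : Adm (wc (cw (S n) (edgesIn G (S n)) F) F) := by
      refine ⟨fun _ => cw_nonneg _ _ _ _, ?_⟩
      have h1 : ∑ S', wc (cw (S n) (edgesIn G (S n)) F) F S' = 1 := by
        rw [← sum_cw (h.ne n) (edOK_edgesIn G _) (h.conn n) F, ← sum_powerset_eq]
        rfl
      rw [h1]
      exact zero_lt_one
    exact covBound_of_stable hst hadmn k e

/-! ### Relabelling -/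

/-- The action of a permutation on unordered pairs. -/
def shE (σ : Equiv.Perm ℕ) : Sym2 ℕ ≃ Sym2 ℕ where
  toFun := Sym2.map σ
  invFun := Sym2.map σ.symm
  left_inv := by
    intro e
    induction e using Sym2.ind with
    | _ a b => simp
  right_inv := by
    intro e
    induction e using Sym2.ind with
    | _ a b => simp

@[simp] lemma shE_apply (σ : Equiv.Perm ℕ) (e : Sym2 ℕ) : shE σ e = Sym2.map σ e := rfl

/-- The notation for the image of a finite set of pairs. -/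
abbrev mapE (σ : Equiv.Perm ℕ) (A : Finset (Sym2 ℕ)) : Finset (Sym2 ℕ) :=
  A.map (shE σ).toEmbedding

/-- The notation for the image of a finite set of vertices. -/
abbrev mapV (σ : Equiv.Perm ℕ) (V : Finset ℕ) : Finset ℕ := V.map σ.toEmbedding

lemma mem_mapE_shE {σ : Equiv.Perm ℕ} {A : Finset (Sym2 ℕ)} {e : Sym2 ℕ} :
    shE σ e ∈ mapE σ A ↔ e ∈ A :=
  Finset.mem_map' (shE σ).toEmbedding

lemma mem_sh_iff {σ : Equiv.Perm ℕ} {e : Sym2 ℕ} {x : ℕ} : σ x ∈ shE σ e ↔ x ∈ e := by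
  induction e using Sym2.ind with
  | _ a b =>
    simp only [shE_apply, Sym2.map_mk, Sym2.mem_iff, EmbeddingLike.apply_eq_iff_eq]

lemma edgesIn_map (G : SimpleGraph ℕ) (σ : Equiv.Perm ℕ) (V : Finset ℕ) :
    mapE σ (edgesIn (G.comap σ) V) = edgesIn G (mapV σ V) := by
  ext e
  obtain ⟨e₀, rfl⟩ := (shE σ).surjective e
  rw [mem_mapE_shE, mem_edgesIn, mem_edgesIn]
  constructor
  · rintro ⟨h1, h2⟩
    refine ⟨?_, ?_⟩
    · intro x hx
      obtain ⟨y, rfl⟩ := σ.surjective x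
      rw [mem_sh_iff] at hx
      rw [Finset.mem_map_equiv]
      simpa using h1 y hx
    · induction e₀ using Sym2.ind with
      | _ a b => exact h2
  · rintro ⟨h1, h2⟩
    refine ⟨?_, ?_⟩
    · intro x hx
      have := h1 (σ x) (mem_sh_iff.mpr hx)
      rw [Finset.mem_map_equiv] at this
      simpa using this
    · induction e₀ using Sym2.ind with
      | _ a b => exact h2

/-- The isomorphism between the graphs of a set of pairs and of its image. -/
def isoE (σ : Equiv.Perm ℕ) (A : Finset (Sym2 ℕ)) :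
    fromEdgeSet (A : Set (Sym2 ℕ)) ≃g fromEdgeSet (mapE σ A : Set (Sym2 ℕ)) where
  toEquiv := σ
  map_rel_iff' := by
    intro a b
    rw [fromEdgeSet_adj, fromEdgeSet_adj]
    have h1 : s(σ a, σ b) = shE σ s(a, b) := rfl
    rw [h1, Finset.mem_coe, Finset.mem_coe, mem_mapE_shE]
    simp

lemma reachable_mapE (σ : Equiv.Perm ℕ) (A : Finset (Sym2 ℕ)) (x y : ℕ) :
    (fromEdgeSet (mapE σ A : Set (Sym2 ℕ))).Reachable (σ x) (σ y) ↔
      (fromEdgeSet (A : Set (Sym2 ℕ))).Reachable x y :=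
  Iso.reachable_iff (φ := isoE σ A)

lemma connOn_map (σ : Equiv.Perm ℕ) (V : Finset ℕ) (A : Finset (Sym2 ℕ)) :
    ConnOn (mapV σ V) (mapE σ A) ↔ ConnOn V A := by
  unfold ConnOn
  constructor
  · intro h x hx y hy
    have := h (σ x) (Finset.mem_map_of_mem _ hx) (σ y) (Finset.mem_map_of_mem _ hy)
    exact (reachable_mapE σ A x y).mp this
  · intro h x hx y hy
    obtain ⟨x₀, hx₀, rfl⟩ := Finset.mem_map.mp hx
    obtain ⟨y₀, hy₀, rfl⟩ := Finset.mem_map.mp hy
    exact (reachable_mapE σ A x₀ y₀).mpr (h x₀ hx₀ y₀ hy₀)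

/-- The action on finite sets of pairs, as an embedding. -/
def mapEmb (σ : Equiv.Perm ℕ) : Finset (Sym2 ℕ) ↪ Finset (Sym2 ℕ) :=
  ⟨mapE σ, Finset.map_injective _⟩

lemma TreesOn_map (σ : Equiv.Perm ℕ) (V : Finset ℕ) (Ed : Finset (Sym2 ℕ)) :
    TreesOn (mapV σ V) (mapE σ Ed) = (TreesOn V Ed).map (mapEmb σ) := by
  ext B
  rw [mem_TreesOn, Finset.mem_map]
  constructor
  · rintro ⟨h1, h2, h3⟩
    obtain ⟨B₀, hB₀, rfl⟩ := Finset.subset_map_iff.mp h1
    refine ⟨B₀, ?_, rfl⟩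
    rw [mem_TreesOn]
    refine ⟨hB₀, (connOn_map σ V B₀).mp h2, ?_⟩
    simpa using h3
  · rintro ⟨B₀, hB₀, rfl⟩
    rw [mem_TreesOn] at hB₀
    refine ⟨Finset.map_subset_map.mpr hB₀.1, (connOn_map σ V B₀).mpr hB₀.2.1, ?_⟩
    simpa [mapEmb] using hB₀.2.2

lemma ustG_map (σ : Equiv.Perm ℕ) (V : Finset ℕ) (Ed A : Finset (Sym2 ℕ)) :
    ustG (mapV σ V) (mapE σ Ed) (mapE σ A) = ustG V Ed A := by
  unfold ustG
  rw [TreesOn_map, Finset.card_map, Finset.filter_map, Finset.card_map]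
  congr 3
  ext B
  simp only [Finset.mem_filter, Function.comp_apply]
  show _ ∧ mapE σ A ⊆ mapE σ B ↔ _
  rw [Finset.map_subset_map]

lemma pieceOK_map (σ : Equiv.Perm ℕ) (V : Finset ℕ) (Ed A : Finset (Sym2 ℕ)) :
    PieceOK (mapV σ V) (mapE σ Ed) (mapE σ A) ↔ PieceOK V Ed A := by
  unfold PieceOK
  rw [connOn_map]
  refine and_congr (by simp) (and_congr_right fun _ => ?_)
  constructor
  · intro h e he x hx
    have := h (shE σ e) (mem_mapE_shE.mpr he) (σ x) (mem_sh_iff.mpr hx)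
    rw [Finset.mem_map_equiv] at this
    simpa using this
  · intro h e he x hx
    obtain ⟨e₀, he₀, rfl⟩ := Finset.mem_map.mp he
    obtain ⟨x₀, rfl⟩ := σ.surjective x
    have h1 := h e₀ he₀ x₀ (mem_sh_iff.mp hx)
    exact Finset.mem_map_of_mem _ h1

lemma tV_map (σ : Equiv.Perm ℕ) (V : Finset ℕ) (Ed A : Finset (Sym2 ℕ)) :
    tV (mapV σ V) (mapE σ Ed) (mapE σ A) = tV V Ed A := by
  unfold tV
  simp only [pieceOK_map, ustG_map]

/-- The free limit is compatible with relabelling. -/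
theorem pG_comap (G : SimpleGraph ℕ) (σ : Equiv.Perm ℕ) (A : Finset (Sym2 ℕ)) :
    pG (G.comap σ) A = pG G (mapE σ A) := by
  unfold pG
  refine Equiv.iInf_congr (σ.finsetCongr) fun V => ?_
  have h1 : σ.finsetCongr V = mapV σ V := rfl
  rw [h1, ← edgesIn_map, tV_map]

lemma mapE_union (σ : Equiv.Perm ℕ) (A B : Finset (Sym2 ℕ)) :
    mapE σ (A ∪ B) = mapE σ A ∪ mapE σ B := Finset.map_union _ _

lemma mapE_sdiff (σ : Equiv.Perm ℕ) (A B : Finset (Sym2 ℕ)) :
    mapE σ (A \ B) = mapE σ A \ mapE σ B := Finset.map_sdiff _ _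

lemma sum_powerset_mapE {M : Type*} [AddCommMonoid M] (σ : Equiv.Perm ℕ) (A : Finset (Sym2 ℕ))
    (f : Finset (Sym2 ℕ) → M) :
    ∑ B ∈ (mapE σ A).powerset, f B = ∑ B ∈ A.powerset, f (mapE σ B) := by
  refine (Finset.sum_bij (fun B _ => mapE σ B) ?_ ?_ ?_ ?_).symm
  · intro B hB
    rw [Finset.mem_powerset] at hB ⊢
    exact Finset.map_subset_map.mpr hB
  · intro B₁ _ B₂ _ h
    exact Finset.map_injective _ h
  · intro B hB
    rw [Finset.mem_powerset] at hB
    obtain ⟨B₀, hB₀, rfl⟩ := Finset.subset_map_iff.mp hB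
    exact ⟨B₀, Finset.mem_powerset.mpr hB₀, rfl⟩
  · intro B _
    rfl

theorem cG_comap (G : SimpleGraph ℕ) (σ : Equiv.Perm ℕ) (F Q : Finset (Sym2 ℕ)) :
    cG (G.comap σ) F Q = cG G (mapE σ F) (mapE σ Q) := by
  unfold cG
  have h1 : mapE σ Q ⊆ mapE σ F ↔ Q ⊆ F := Finset.map_subset_map
  simp only [h1]
  split_ifs with hQ
  · rw [← mapE_sdiff, sum_powerset_mapE]
    refine Finset.sum_congr rfl fun F' _ => ?_
    rw [pG_comap, mapE_union, Finset.card_map]
  · rfl

end Crest.Agent.Lib.UST
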