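import Crest.Agent.Lib.UST.Mono

/-!
# The spanning trees of the prelude are the trees of `TreesOn`
-/

set_option autoImplicit false
set_option linter.unusedSectionVars false
set_option linter.unusedSimpArgs false
set_option linter.unusedVariables false

namespace Crest.Agent.Lib.UST

open Finset Filter SimpleGraph Crest.ProbabilityR.SpanningTrees

open scoped Classical

lemma mem_edgesIn {G : SimpleGraph ℕ} {S : Finset ℕ} {e : Sym2 ℕ} :
    e ∈ edgesIn G S ↔ (∀ x ∈ e, x ∈ S) ∧ e ∈ G.edgeSet := by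
  unfold edgesIn
  rw [Finset.mem_filter, Finset.mem_sym2_iff]

lemma edOK_edgesIn (G : SimpleGraph ℕ) (S : Finset ℕ) : EdOK S (edgesIn G S) := by
  intro e he
  rw [mem_edgesIn] at he
  exact ⟨G.not_isDiag_of_mem_edgeSet he.2, he.1⟩

lemma EdOK.mono {V : Finset ℕ} {A B : Finset (Sym2 ℕ)} (hB : EdOK V B) (hAB : A ⊆ B) : EdOK V A :=
  fun e he => hB e (hAB he)

section induce

variable {S : Finset ℕ} {A : Finset (Sym2 ℕ)}

/-- The edges of the induced graph are the edges of `A`. -/
lemma card_edgeSet_induce (hA : EdOK S A) :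
    Nat.card ((fromEdgeSet (A : Set (Sym2 ℕ))).induce (S : Set ℕ)).edgeSet = A.card := by
  set I := (fromEdgeSet (A : Set (Sym2 ℕ))).induce (S : Set ℕ) with hI
  have hinj : Function.Injective (Sym2.map (Subtype.val : ↥(S : Set ℕ) → ℕ)) :=
    Sym2.map.injective Subtype.val_injective
  have himg : (Sym2.map (Subtype.val : ↥(S : Set ℕ) → ℕ)) '' I.edgeSet = (A : Set (Sym2 ℕ)) := by
    ext e
    constructor
    · rintro ⟨e', he', rfl⟩
      induction e' using Sym2.ind with
      | _ a b =>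
        rw [SimpleGraph.mem_edgeSet] at he'
        have h1 : (fromEdgeSet (A : Set (Sym2 ℕ))).Adj a.1 b.1 := he'
        rw [fromEdgeSet_adj] at h1
        exact h1.1
    · intro he
      have he' : e ∈ A := he
      obtain ⟨hnd, hmem⟩ := hA e he'
      induction e using Sym2.ind with
      | _ x y =>
        have hx := hmem x (Sym2.mem_mk_left x y)
        have hy := hmem y (Sym2.mem_mk_right x y)
        refine ⟨s(⟨x, hx⟩, ⟨y, hy⟩), ?_, rfl⟩
        rw [SimpleGraph.mem_edgeSet]
        show (fromEdgeSet (A : Set (Sym2 ℕ))).Adj x y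
        rw [fromEdgeSet_adj]
        exact ⟨he, fun h => hnd (by simpa using h)⟩
  rw [← Set.ncard_coe_finset A, ← himg, Set.ncard_image_of_injective _ hinj,
    Nat.card_coe_set_eq]

lemma reachable_induce_of_walk (hA : EdOK S A) {x y : ℕ}
    (p : (fromEdgeSet (A : Set (Sym2 ℕ))).Walk x y) (hx : x ∈ S) :
    ∃ hy : y ∈ S, ((fromEdgeSet (A : Set (Sym2 ℕ))).induce (S : Set ℕ)).Reachable ⟨x, hx⟩ ⟨y, hy⟩ := by
  induction p with
  | nil => exact ⟨hx, Reachable.refl _⟩
  | @cons u v w hadj q ih =>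
    have h1 := hadj
    rw [fromEdgeSet_adj] at h1
    have hv : v ∈ S := (hA _ h1.1).2 v (Sym2.mem_mk_right u v)
    obtain ⟨hw, hr⟩ := ih hv
    refine ⟨hw, Reachable.trans ?_ hr⟩
    refine Adj.reachable ?_
    exact hadj

lemma connected_induce_iff (hA : EdOK S A) (hS : S.Nonempty) :
    ((fromEdgeSet (A : Set (Sym2 ℕ))).induce (S : Set ℕ)).Connected ↔ ConnOn S A := by
  constructor
  · intro h x hx y hy
    have h1 := h.preconnected ⟨x, hx⟩ ⟨y, hy⟩
    have h2 := h1.map ((Embedding.induce (G := fromEdgeSet (A : Set (Sym2 ℕ)))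
      (S : Set ℕ)).toHom)
    exact h2
  · intro h
    have : Nonempty (S : Set ℕ) := by
      obtain ⟨a, ha⟩ := hS
      exact ⟨⟨a, ha⟩⟩
    refine ⟨fun a b => ?_⟩
    obtain ⟨p⟩ := h a.1 a.2 b.1 b.2
    obtain ⟨hy, hr⟩ := reachable_induce_of_walk hA p a.2
    exact hr

lemma isTree_induce_iff (hA : EdOK S A) :
    ((fromEdgeSet (A : Set (Sym2 ℕ))).induce (S : Set ℕ)).IsTree ↔
      ConnOn S A ∧ A.card + 1 = S.card := by
  have : Finite (S : Set ℕ) := S.finite_toSet
  rw [isTree_iff_connected_and_card, card_edgeSet_induce hA, Nat.card_coe_set_eq,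
    Set.ncard_coe_finset]
  constructor
  · rintro ⟨h1, h2⟩
    have hS : S.Nonempty := by
      rw [← Finset.card_pos]
      omega
    exact ⟨(connected_induce_iff hA hS).mp h1, h2⟩
  · rintro ⟨h1, h2⟩
    have hS : S.Nonempty := by
      rw [← Finset.card_pos]
      omega
    exact ⟨(connected_induce_iff hA hS).mpr h1, h2⟩

end induce

theorem isSpanningTreeOn_iff {G : SimpleGraph ℕ} {S : Finset ℕ} {A : Finset (Sym2 ℕ)} :
    IsSpanningTreeOn G S A ↔ A ∈ TreesOn S (edgesIn G S) := by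
  rw [mem_TreesOn]
  unfold IsSpanningTreeOn
  constructor
  · rintro ⟨h1, h2⟩
    have := (isTree_induce_iff ((edOK_edgesIn G S).mono h1)).mp h2
    exact ⟨h1, this.1, this.2⟩
  · rintro ⟨h1, h2, h3⟩
    exact ⟨h1, (isTree_induce_iff ((edOK_edgesIn G S).mono h1)).mpr ⟨h2, h3⟩⟩

/-- The prelude's probability agrees with `ustG`. -/
theorem ustContains_eq (G : SimpleGraph ℕ) (S : Finset ℕ) (F : Finset (Sym2 ℕ)) :
    ustContains G S F = ustG S (edgesIn G S) F := by
  unfold ustContains ustG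
  congr 2
  · congr 1
    ext A
    simp only [Finset.mem_filter, Finset.mem_powerset]
    constructor
    · rintro ⟨h1, h2, h3⟩
      exact ⟨isSpanningTreeOn_iff.mp h2, h3⟩
    · rintro ⟨h1, h2⟩
      exact ⟨(mem_TreesOn.mp h1).1, isSpanningTreeOn_iff.mpr h1, h2⟩
  · congr 1
    ext A
    simp only [Finset.mem_filter, Finset.mem_powerset]
    constructor
    · rintro ⟨h1, h2⟩
      exact isSpanningTreeOn_iff.mp h2
    · intro h1
      exact ⟨(mem_TreesOn.mp h1).1, isSpanningTreeOn_iff.mpr h1⟩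

/-- The connected pieces of the prelude are connected in the sense of `ConnOn`. -/
theorem connOn_of_induce {G : SimpleGraph ℕ} {S : Finset ℕ} (h : (G.induce (S : Set ℕ)).Connected) :
    ConnOn S (edgesIn G S) := by
  intro x hx y hy
  have h1 := h.preconnected ⟨x, hx⟩ ⟨y, hy⟩
  let φ : G.induce (S : Set ℕ) →g fromEdgeSet (edgesIn G S : Set (Sym2 ℕ)) :=
    ⟨Subtype.val, by
      intro a b hab
      rw [fromEdgeSet_adj]
      refine ⟨?_, fun h => hab.ne (Subtype.ext h)⟩
      · rw [Finset.mem_coe, mem_edgesIn]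
        refine ⟨?_, hab⟩
        intro z hz
        rw [Sym2.mem_iff] at hz
        rcases hz with rfl | rfl
        · exact a.2
        · exact b.2⟩
  exact h1.map φ

theorem nonempty_of_induce {G : SimpleGraph ℕ} {S : Finset ℕ}
    (h : (G.induce (S : Set ℕ)).Connected) : S.Nonempty := by
  obtain ⟨a⟩ := h.nonempty
  exact ⟨a.1, a.2⟩

end Crest.Agent.Lib.UST
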