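import Crest.Agent.Lib.UST.Link

/-!
# The window marginals of the uniform spanning tree
-/

set_option autoImplicit false
set_option linter.unusedSectionVars false
set_option linter.unusedSimpArgs false
set_option linter.unusedVariables false

namespace Crest.Agent.Lib.UST

open Finset Filter SimpleGraph Crest.Agent.Lib.SRFlow

open scoped Classical

variable {V : Finset ℕ} {Ed : Finset (Sym2 ℕ)}

/-- The probability that the uniform spanning tree of `(V, Ed)` meets the window `F` in `Q`. -/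
noncomputable def cw (V : Finset ℕ) (Ed F Q : Finset (Sym2 ℕ)) : ℝ :=
  (((TreesOn V Ed).filter fun A => A ∩ F = Q).card : ℝ) / ((TreesOn V Ed).card : ℝ)

lemma cw_nonneg (V : Finset ℕ) (Ed F Q : Finset (Sym2 ℕ)) : 0 ≤ cw V Ed F Q := by
  unfold cw
  positivity

lemma card_TreesOn_pos (hV : V.Nonempty) (hEd : EdOK V Ed) (hconn : ConnOn V Ed) :
    (0 : ℝ) < ((TreesOn V Ed).card : ℝ) := by
  exact_mod_cast Finset.card_pos.mpr (TreesOn_nonempty hV hEd hconn)

lemma card_fiber_sum (T : Finset (Finset (Sym2 ℕ))) (F : Finset (Sym2 ℕ)) :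
    ∑ Q ∈ F.powerset, ((T.filter fun A => A ∩ F = Q).card : ℝ) = (T.card : ℝ) := by
  have h := Finset.card_eq_sum_card_fiberwise (s := T) (t := F.powerset) (f := fun A => A ∩ F)
    (fun A _ => by
      rw [Finset.mem_coe, Finset.mem_powerset]
      exact Finset.inter_subset_right)
  rw [h]
  push_cast
  rfl

theorem sum_cw (hV : V.Nonempty) (hEd : EdOK V Ed) (hconn : ConnOn V Ed)
    (F : Finset (Sym2 ℕ)) : ∑ Q ∈ F.powerset, cw V Ed F Q = 1 := by
  unfold cw
  rw [← Finset.sum_div, card_fiber_sum]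
  exact div_self (card_TreesOn_pos hV hEd hconn).ne'

theorem cw_consistent (V : Finset ℕ) (Ed : Finset (Sym2 ℕ)) {F F' : Finset (Sym2 ℕ)} (h : F ⊆ F')
    (S : Finset (Sym2 ℕ)) :
    cw V Ed F S = ∑ S' ∈ F'.powerset with S' ∩ F = S, cw V Ed F' S' := by
  unfold cw
  rw [← Finset.sum_div]
  congr 1
  have hmaps : ∀ A ∈ (TreesOn V Ed).filter (fun A => A ∩ F = S),
      A ∩ F' ∈ F'.powerset.filter (fun S' => S' ∩ F = S) := by
    intro A hA
    rw [Finset.mem_filter] at hA
    rw [Finset.mem_filter, Finset.mem_powerset]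
    refine ⟨Finset.inter_subset_right, ?_⟩
    rw [Finset.inter_assoc, Finset.inter_eq_right.mpr h]
    exact hA.2
  have h1 := Finset.card_eq_sum_card_fiberwise (s := (TreesOn V Ed).filter (fun A => A ∩ F = S))
    (t := F'.powerset.filter (fun S' => S' ∩ F = S)) (f := fun A => A ∩ F')
    (fun A hA => hmaps A hA)
  rw [h1]
  push_cast
  refine Finset.sum_congr rfl fun S' hS' => ?_
  congr 2
  ext A
  simp only [Finset.mem_filter]
  constructor
  · rintro ⟨⟨h2, _⟩, h4⟩
    exact ⟨h2, h4⟩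
  · rintro ⟨h2, h4⟩
    refine ⟨⟨h2, ?_⟩, h4⟩
    rw [Finset.mem_filter] at hS'
    rw [← hS'.2, ← h4, Finset.inter_assoc, Finset.inter_eq_right.mpr h]

/-- The window marginal is a stable polynomial. -/
theorem stab_cw (hV : V.Nonempty) (hEd : EdOK V Ed) (hconn : ConnOn V Ed)
    (F : Finset (Sym2 ℕ)) : Stab (wc (cw V Ed F) F) := by
  intro z hz
  let z' : Sym2 ℕ → ℂ := fun e => if h : e ∈ F then z ⟨e, h⟩ else 1
  have hz' : ∀ e ∈ Ed, 0 < (z' e).im ∨ ((z' e).im = 0 ∧ 0 < (z' e).re) := by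
    intro e _
    by_cases he : e ∈ F
    · left
      simp only [z', he, dif_pos]
      exact hz _
    · right
      simp [z', he]
  have h1 := tree_poly_ne_zero hV hEd hconn hz'
  have hN := (card_TreesOn_pos hV hEd hconn).ne'
  have hsum : ∑ S : Finset ↥F, ((wc (cw V Ed F) F S : ℝ) : ℂ) * ∏ i ∈ S, z i
      = (((TreesOn V Ed).card : ℝ) : ℂ)⁻¹ * ∑ A ∈ TreesOn V Ed, ∏ e ∈ A, z' e := by
    have h2 : ∀ S : Finset ↥F, ((wc (cw V Ed F) F S : ℝ) : ℂ) * ∏ i ∈ S, z i
        = (fun Q : Finset (Sym2 ℕ) => ((cw V Ed F Q : ℝ) : ℂ) * ∏ x ∈ Q, z' x)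
          (S.map (Function.Embedding.subtype _)) := by
      intro S
      show _ = ((wc (cw V Ed F) F S : ℝ) : ℂ) * _
      congr 1
      rw [Finset.prod_map]
      refine Finset.prod_congr rfl fun i _ => ?_
      simp [z', i.2]
    rw [Finset.sum_congr rfl fun S _ => h2 S]
    refine (sum_powerset_eq F (fun Q : Finset (Sym2 ℕ) =>
      ((cw V Ed F Q : ℝ) : ℂ) * ∏ x ∈ Q, z' x)).trans ?_
    rw [← Finset.sum_fiberwise_of_maps_to (s := TreesOn V Ed) (t := F.powerset)
      (g := fun A => A ∩ F) (fun A _ => Finset.mem_powerset.mpr Finset.inter_subset_right),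
      Finset.mul_sum]
    refine Finset.sum_congr rfl fun Q hQ => ?_
    have h3 : ∀ A ∈ (TreesOn V Ed).filter (fun A => A ∩ F = Q), ∏ e ∈ A, z' e = ∏ x ∈ Q, z' x := by
      intro A hA
      rw [Finset.mem_filter] at hA
      rw [← hA.2]
      refine (Finset.prod_subset Finset.inter_subset_left ?_).symm
      intro x hx hx'
      have : x ∉ F := fun h => hx' (Finset.mem_inter.mpr ⟨hx, h⟩)
      simp [z', this]
    rw [Finset.sum_congr rfl h3, Finset.sum_const, nsmul_eq_mul]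
    unfold cw
    push_cast
    field_simp
  rw [hsum]
  refine mul_ne_zero ?_ h1
  exact inv_ne_zero (by exact_mod_cast hN)

/-- Inclusion and exclusion for one tree. -/
lemma indicator_inter_eq (A F Q : Finset (Sym2 ℕ)) (hQ : Q ⊆ F) :
    (if A ∩ F = Q then (1 : ℝ) else 0)
      = ∑ F' ∈ (F \ Q).powerset, (-1 : ℝ) ^ F'.card * (if Q ∪ F' ⊆ A then 1 else 0) := by
  by_cases hQA : Q ⊆ A
  · have h1 : ∀ F' ∈ (F \ Q).powerset, (-1 : ℝ) ^ F'.card * (if Q ∪ F' ⊆ A then 1 else 0)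
        = if F' ⊆ A then (-1 : ℝ) ^ F'.card else 0 := by
      intro F' _
      have : Q ∪ F' ⊆ A ↔ F' ⊆ A :=
        ⟨fun h => Finset.union_subset_right h, fun h => Finset.union_subset hQA h⟩
      simp only [this]
      split_ifs <;> simp
    rw [Finset.sum_congr rfl h1, ← Finset.sum_filter]
    have h2 : (F \ Q).powerset.filter (fun F' => F' ⊆ A) = ((F \ Q) ∩ A).powerset := by
      ext F'
      simp only [Finset.mem_filter, Finset.mem_powerset, Finset.subset_inter_iff]
    rw [h2]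
    have h3 := Finset.sum_powerset_neg_one_pow_card (x := (F \ Q) ∩ A)
    have h4 : ∑ m ∈ ((F \ Q) ∩ A).powerset, ((-1 : ℝ) ^ m.card)
        = ((∑ m ∈ ((F \ Q) ∩ A).powerset, ((-1 : ℤ) ^ m.card) : ℤ) : ℝ) := by
      push_cast
      rfl
    rw [h4, h3]
    have h5 : A ∩ F = Q ↔ (F \ Q) ∩ A = ∅ := by
      constructor
      · intro h
        ext x
        simp only [Finset.mem_inter, Finset.mem_sdiff, Finset.notMem_empty, iff_false]
        rintro ⟨⟨hx1, hx2⟩, hx3⟩
        exact hx2 (h ▸ Finset.mem_inter.mpr ⟨hx3, hx1⟩)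
      · intro h
        ext x
        simp only [Finset.mem_inter]
        constructor
        · rintro ⟨hx1, hx2⟩
          by_contra hx3
          have : x ∈ (F \ Q) ∩ A := Finset.mem_inter.mpr ⟨Finset.mem_sdiff.mpr ⟨hx2, hx3⟩, hx1⟩
          rw [h] at this
          simp at this
        · intro hx
          exact ⟨hQA hx, hQ hx⟩
    by_cases h6 : (F \ Q) ∩ A = ∅
    · simp [h6, h5.mpr h6]
    · have h7 : ¬ A ∩ F = Q := fun h => h6 (h5.mp h)
      simp [h6, h7]
  · have h1 : ¬ A ∩ F = Q := by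
      intro h
      apply hQA
      rw [← h]
      exact Finset.inter_subset_left
    rw [if_neg h1]
    symm
    refine Finset.sum_eq_zero fun F' _ => ?_
    have : ¬ Q ∪ F' ⊆ A := fun h => hQA (Finset.union_subset_left h)
    simp [this]

/-- Inclusion and exclusion for the uniform spanning tree. -/
theorem cw_eq_sum (V : Finset ℕ) (Ed : Finset (Sym2 ℕ)) {F Q : Finset (Sym2 ℕ)} (hQ : Q ⊆ F) :
    cw V Ed F Q = ∑ F' ∈ (F \ Q).powerset, (-1 : ℝ) ^ F'.card * ustG V Ed (Q ∪ F') := by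
  unfold cw ustG
  have h1 : (((TreesOn V Ed).filter fun A => A ∩ F = Q).card : ℝ)
      = ∑ A ∈ TreesOn V Ed, (if A ∩ F = Q then (1 : ℝ) else 0) := by
    rw [Finset.card_filter]
    push_cast
    rfl
  have h2 : ∀ F' : Finset (Sym2 ℕ), (((TreesOn V Ed).filter fun A => Q ∪ F' ⊆ A).card : ℝ)
      = ∑ A ∈ TreesOn V Ed, (if Q ∪ F' ⊆ A then (1 : ℝ) else 0) := by
    intro F'
    rw [Finset.card_filter]
    push_cast
    rfl
  rw [h1, Finset.sum_congr rfl fun A _ => indicator_inter_eq A F Q hQ, Finset.sum_comm,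
    Finset.sum_div]
  refine Finset.sum_congr rfl fun F' _ => ?_
  rw [h2, ← Finset.mul_sum, mul_div_assoc]

lemma cw_of_not_subset (V : Finset ℕ) (Ed : Finset (Sym2 ℕ)) {F Q : Finset (Sym2 ℕ)}
    (hQ : ¬ Q ⊆ F) : cw V Ed F Q = 0 := by
  unfold cw
  have : (TreesOn V Ed).filter (fun A => A ∩ F = Q) = ∅ := by
    rw [Finset.filter_eq_empty_iff]
    intro A _ h
    exact hQ (h ▸ Finset.inter_subset_right)
  rw [this]
  simp

lemma ustG_nonneg (V : Finset ℕ) (Ed F : Finset (Sym2 ℕ)) : 0 ≤ ustG V Ed F := by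
  unfold ustG
  positivity

lemma ustG_le_one (V : Finset ℕ) (Ed F : Finset (Sym2 ℕ)) : ustG V Ed F ≤ 1 := by
  unfold ustG
  refine div_le_one_of_le₀ ?_ (by positivity)
  exact_mod_cast Finset.card_filter_le _ _

lemma ustG_eq_zero {V : Finset ℕ} {Ed F : Finset (Sym2 ℕ)} (h : ¬ F ⊆ Ed) : ustG V Ed F = 0 := by
  unfold ustG
  have : (TreesOn V Ed).filter (fun A => F ⊆ A) = ∅ := by
    rw [Finset.filter_eq_empty_iff]
    intro A hA hF
    exact h (hF.trans (mem_TreesOn.mp hA).1)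
  rw [this]
  simp

end Crest.Agent.Lib.UST
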