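import Crest.Agent.Lib.UST.Noise
import Crest.Prelude.Def_GraphTables

/-!
# Measurability in the adjacency table
-/

set_option autoImplicit false
set_option linter.unusedSectionVars false
set_option linter.unusedSimpArgs false
set_option linter.unusedVariables false

namespace Crest.Agent.Lib.UST

open Finset Filter SimpleGraph Crest.Agent.Lib.SRFlow Crest.ProbabilityR.SpanningTrees Topology
open MeasureTheory ProbabilityTheory Crest.ProbabilityR.GraphTables

open scoped Classical

/-- The space of adjacency tables. -/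
abbrev Tb := ℕ → ℕ → Bool

section Helpers

variable {X Y Z : Type*} [MeasurableSpace X]

lemma measurable_of_fibers [MeasurableSpace Z] [Countable Y] {φ : X → Y}
    (h : ∀ y, MeasurableSet {x | φ x = y}) (g : Y → Z) : Measurable fun x => g (φ x) := by
  intro S _
  have h1 : (fun x => g (φ x)) ⁻¹' S = ⋃ y : {y : Y // g y ∈ S}, {x | φ x = y.1} := by
    ext x
    simp only [Set.mem_preimage, Set.mem_iUnion, Set.mem_setOf_eq, Subtype.exists, exists_prop]
    exact ⟨fun hx => ⟨φ x, hx, rfl⟩, fun ⟨y, hy, hxy⟩ => hxy ▸ hy⟩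
  rw [h1]
  exact MeasurableSet.iUnion fun y => h y.1

lemma measurableSet_of_fibers [Countable Y] {φ : X → Y}
    (h : ∀ y, MeasurableSet {x | φ x = y}) (q : Y → Prop) : MeasurableSet {x | q (φ x)} := by
  have h1 : {x | q (φ x)} = ⋃ y : {y : Y // q y}, {x | φ x = y.1} := by
    ext x
    simp only [Set.mem_iUnion, Set.mem_setOf_eq, Subtype.exists, exists_prop]
    exact ⟨fun hx => ⟨φ x, hx, rfl⟩, fun ⟨y, hy, hxy⟩ => hxy ▸ hy⟩
  rw [h1]
  exact MeasurableSet.iUnion fun y => h y.1

lemma fibers_comp [Countable Y] {φ : X → Y} (h : ∀ y, MeasurableSet {x | φ x = y}) (g : Y → Z)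
    (z : Z) : MeasurableSet {x | g (φ x) = z} :=
  measurableSet_of_fibers h fun y => g y = z

lemma measurableSet_iff_const {P : X → Prop} (h : MeasurableSet {x | P x}) (q : Prop) :
    MeasurableSet {x | P x ↔ q} := by
  by_cases hq : q
  · have h2 : {x | P x ↔ q} = {x | P x} := by
      ext x
      simp [hq]
    rw [h2]
    exact h
  · have h2 : {x | P x ↔ q} = {x | P x}ᶜ := by
      ext x
      simp [hq]
    rw [h2]
    exact h.compl

lemma measurableSet_const_and {P : X → Prop} (h : MeasurableSet {x | P x}) (q : Prop) :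
    MeasurableSet {x | q ∧ P x} := by
  by_cases hq : q
  · simpa [hq] using h
  · simp [hq]

end Helpers

lemma measurableSet_entry (i j : ℕ) : MeasurableSet {T : Tb | T i j = true} := by
  have h1 : Measurable fun T : Tb => T i j :=
    (measurable_pi_apply j).comp (measurable_pi_apply i)
  exact h1 (measurableSet_singleton true)

lemma measurableSet_adj (i j : ℕ) : MeasurableSet {T : Tb | (graphOfTable T).Adj i j} := by
  have h1 : {T : Tb | (graphOfTable T).Adj i j}
      = {_T | i ≠ j} ∩ ({T | T i j = true} ∪ {T | T j i = true}) := by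
    ext T
    simp [graphOfTable, SimpleGraph.fromRel_adj]
  rw [h1]
  exact (MeasurableSet.const _).inter ((measurableSet_entry i j).union (measurableSet_entry j i))

lemma measurableSet_mem_edgeSet (e : Sym2 ℕ) :
    MeasurableSet {T : Tb | e ∈ (graphOfTable T).edgeSet} := by
  induction e using Sym2.ind with
  | _ a b => exact measurableSet_adj a b

lemma fibers_edgesIn (V : Finset ℕ) (Ed : Finset (Sym2 ℕ)) :
    MeasurableSet {T : Tb | edgesIn (graphOfTable T) V = Ed} := by
  have h1 : {T : Tb | edgesIn (graphOfTable T) V = Ed}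
      = ⋂ e : Sym2 ℕ, {T | ((∀ x ∈ e, x ∈ V) ∧ e ∈ (graphOfTable T).edgeSet) ↔ e ∈ Ed} := by
    ext T
    simp only [Set.mem_setOf_eq, Set.mem_iInter, Finset.ext_iff, mem_edgesIn]
  rw [h1]
  refine MeasurableSet.iInter fun e => measurableSet_iff_const ?_ _
  exact measurableSet_const_and (measurableSet_mem_edgeSet e) _

lemma measurable_pG (A : Finset (Sym2 ℕ)) : Measurable fun T : Tb => pG (graphOfTable T) A := by
  unfold pG
  refine Measurable.iInf fun V => ?_
  exact measurable_of_fibers (fibers_edgesIn V) (fun Ed => tV V Ed A)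

lemma measurable_cG (F Q : Finset (Sym2 ℕ)) : Measurable fun T : Tb => cG (graphOfTable T) F Q := by
  unfold cG
  by_cases hQ : Q ⊆ F
  · simp only [hQ, if_true]
    exact Finset.measurable_sum _ fun F' _ => (measurable_pG _).const_mul _
  · simp only [hQ, if_false]
    exact measurable_const

lemma measurableSet_walkLe (r u x : ℕ) : MeasurableSet {T : Tb | WalkLe (graphOfTable T) r u x} := by
  induction r generalizing u with
  | zero => exact MeasurableSet.const _
  | succ r ih =>
    have h1 : {T : Tb | WalkLe (graphOfTable T) (r + 1) u x}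
        = {T | WalkLe (graphOfTable T) r u x}
          ∪ ⋃ z, ({T | (graphOfTable T).Adj u z} ∩ {T | WalkLe (graphOfTable T) r z x}) := by
      ext T
      simp only [Set.mem_setOf_eq, Set.mem_union, Set.mem_iUnion, Set.mem_inter_iff]
      rfl
    rw [h1]
    exact (ih u).union (MeasurableSet.iUnion fun z => (measurableSet_adj u z).inter (ih z))

lemma measurableSet_mem_VBs (r : ℕ) (e : Sym2 ℕ) (x : ℕ) :
    MeasurableSet {T : Tb | x ∈ VBs (graphOfTable T) r e} := by
  have h1 : {T : Tb | x ∈ VBs (graphOfTable T) r e}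
      = ⋃ y, {T | y ∈ e ∧ WalkLe (graphOfTable T) r y x} := by
    ext T
    simp [VBs]
  rw [h1]
  exact MeasurableSet.iUnion fun y => measurableSet_const_and (measurableSet_walkLe r y x) _

lemma measurableSet_VBs_eq (r : ℕ) (e : Sym2 ℕ) (V : Finset ℕ) :
    MeasurableSet {T : Tb | VBs (graphOfTable T) r e = (V : Set ℕ)} := by
  have h1 : {T : Tb | VBs (graphOfTable T) r e = (V : Set ℕ)}
      = ⋂ x, {T | x ∈ VBs (graphOfTable T) r e ↔ x ∈ V} := by
    ext T
    simp only [Set.mem_setOf_eq, Set.mem_iInter, Set.ext_iff, Finset.mem_coe]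
  rw [h1]
  exact MeasurableSet.iInter fun x => measurableSet_iff_const (measurableSet_mem_VBs r e x) _

lemma measurableSet_VBs_finite (r : ℕ) (e : Sym2 ℕ) :
    MeasurableSet {T : Tb | (VBs (graphOfTable T) r e).Finite} := by
  have h1 : {T : Tb | (VBs (graphOfTable T) r e).Finite}
      = ⋃ V : Finset ℕ, {T | VBs (graphOfTable T) r e = (V : Set ℕ)} := by
    ext T
    simp only [Set.mem_setOf_eq, Set.mem_iUnion]
    constructor
    · intro h
      exact ⟨h.toFinset, by simp⟩
    · rintro ⟨V, hV⟩
      rw [hV]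
      exact V.finite_toSet
  rw [h1]
  exact MeasurableSet.iUnion fun V => measurableSet_VBs_eq r e V

lemma fibers_VBF (r : ℕ) (e : Sym2 ℕ) (V : Finset ℕ) :
    MeasurableSet {T : Tb | VBF (graphOfTable T) r e = V} := by
  have h1 : {T : Tb | VBF (graphOfTable T) r e = V}
      = {T | VBs (graphOfTable T) r e = (V : Set ℕ)}
        ∪ ({T | (VBs (graphOfTable T) r e).Finite}ᶜ ∩ {_T | V = ∅}) := by
    ext T
    simp only [Set.mem_setOf_eq, Set.mem_union, Set.mem_inter_iff, Set.mem_compl_iff]
    unfold VBF
    by_cases hf : (VBs (graphOfTable T) r e).Finite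
    · rw [dif_pos hf]
      constructor
      · intro h
        left
        rw [← h]
        simp
      · rintro (h | h)
        · ext x
          rw [Set.Finite.mem_toFinset, h, Finset.mem_coe]
        · exact absurd hf h.1
    · rw [dif_neg hf]
      constructor
      · intro h
        right
        exact ⟨hf, h.symm⟩
      · rintro (h | h)
        · rw [h] at hf
          exact absurd V.finite_toSet hf
        · exact h.2.symm
  rw [h1]
  exact (measurableSet_VBs_eq r e V).union
    ((measurableSet_VBs_finite r e).compl.inter (MeasurableSet.const _))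

lemma fibers_W₀ (r : ℕ) (e : Sym2 ℕ) (F : Finset (Sym2 ℕ)) :
    MeasurableSet {T : Tb | W₀ (graphOfTable T) r e = F} :=
  fibers_comp (fibers_VBF r e) (fun V => V.sym2) F

/-- The flow is jointly measurable in the parameter of the coefficients and the noise. -/
lemma measurable_flowE_coeff {X : Type*} [MeasurableSpace X] {cf : X → Finset (Sym2 ℕ) → ℝ}
    (F : Finset (Sym2 ℕ)) (τ : ℝ) (e : Sym2 ℕ) (hcf : ∀ S, Measurable fun x => cf x S) :
    Measurable fun p : X × (Sym2 ℕ → ℝ) => flowE (cf p.1) F τ p.2 e := by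
  unfold flowE
  by_cases he : e ∈ F
  · simp only [he, dif_pos]
    have h1 := measurable_flowV (ι := ↥F) τ
    have h2 : Measurable fun p : X × (Sym2 ℕ → ℝ) => (wc (cf p.1) F, F.restrict p.2) := by
      refine Measurable.prodMk ?_ ((Finset.measurable_restrict F).comp measurable_snd)
      refine measurable_pi_lambda _ fun S' => ?_
      exact (hcf _).comp measurable_fst
    have h3 := (measurable_pi_apply (⟨e, he⟩ : ↥F)).comp (h1.comp h2)
    exact h3
  · simp only [he, dif_neg, not_false_eq_true]
    exact (measurable_pi_apply e).comp measurable_snd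

lemma measurable_integral_flow (F F' : Finset (Sym2 ℕ)) (k : ℕ) (e : Sym2 ℕ) :
    Measurable fun T : Tb =>
      ∫ ζ, |flowE (cG (graphOfTable T) F) F k ζ e - flowE (cG (graphOfTable T) F') F' k ζ e|
        ∂(gamE (Sym2 ℕ)) := by
  have hf : Measurable fun p : Tb × (Sym2 ℕ → ℝ) =>
      |flowE (cG (graphOfTable p.1) F) F k p.2 e - flowE (cG (graphOfTable p.1) F') F' k p.2 e| :=
    ((measurable_flowE_coeff (cf := fun T : Tb => cG (graphOfTable T) F) F k e
        fun S => measurable_cG F S).sub
      (measurable_flowE_coeff (cf := fun T : Tb => cG (graphOfTable T) F') F' k e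
        fun S => measurable_cG F' S)).abs
  exact hf.stronglyMeasurable.integral_prod_right'.measurable

lemma measurableSet_WP (k : ℕ) (e : Sym2 ℕ) (r : ℕ) :
    MeasurableSet {T : Tb | WP (graphOfTable T) k e r} := by
  have h1 : {T : Tb | WP (graphOfTable T) k e r}
      = ⋂ F : Finset (Sym2 ℕ), ⋂ F' : Finset (Sym2 ℕ),
        ({T | W₀ (graphOfTable T) r e ⊆ F}ᶜ ∪ ({T | W₀ (graphOfTable T) r e ⊆ F'}ᶜ ∪
          {T | ∫ ζ, |flowE (cG (graphOfTable T) F) F k ζ e
            - flowE (cG (graphOfTable T) F') F' k ζ e| ∂(gamE (Sym2 ℕ)) ≤ (1 / 2 : ℝ) ^ k})) := by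
    ext T
    simp only [WP, Set.mem_setOf_eq, Set.mem_iInter, Set.mem_union, Set.mem_compl_iff]
    refine forall_congr' fun F => forall_congr' fun F' => ?_
    tauto
  rw [h1]
  refine MeasurableSet.iInter fun F => MeasurableSet.iInter fun F' => ?_
  refine (measurableSet_of_fibers (fibers_W₀ r e) (fun W => W ⊆ F)).compl.union
    ((measurableSet_of_fibers (fibers_W₀ r e) (fun W => W ⊆ F')).compl.union ?_)
  exact measurableSet_le (measurable_integral_flow F F' k e) measurable_const

lemma measurable_rr (k : ℕ) (e : Sym2 ℕ) : Measurable fun T : Tb => rr (graphOfTable T) k e :=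
  measurable_sInf_nat (fun T r => WP (graphOfTable T) k e r) (measurableSet_WP k e)

lemma fibers_Wd (k : ℕ) (e : Sym2 ℕ) (F : Finset (Sym2 ℕ)) :
    MeasurableSet {T : Tb | Wd (graphOfTable T) k e = F} := by
  have h1 : {T : Tb | Wd (graphOfTable T) k e = F}
      = ⋃ r, ({T | rr (graphOfTable T) k e = r} ∩ {T | W₀ (graphOfTable T) r e = F}) := by
    ext T
    simp [Wd]
  rw [h1]
  refine MeasurableSet.iUnion fun r => MeasurableSet.inter ?_ (fibers_W₀ r e F)
  exact (measurable_rr k e) (measurableSet_singleton r)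

lemma measurableSet_Yk_joint (k : ℕ) (e : Sym2 ℕ) :
    MeasurableSet {p : Tb × (Sym2 ℕ → ℝ) |
      Yk (cG (graphOfTable p.1)) (Wd (graphOfTable p.1) k e) k p.2 e} := by
  have h1 : {p : Tb × (Sym2 ℕ → ℝ) |
      Yk (cG (graphOfTable p.1)) (Wd (graphOfTable p.1) k e) k p.2 e}
      = ⋃ F : Finset (Sym2 ℕ), (Prod.fst ⁻¹' {T : Tb | Wd (graphOfTable T) k e = F}
          ∩ {p | (k : ℝ) / 2 < flowE (cG (graphOfTable p.1) F) F k p.2 e}) := by
    ext p
    simp only [Set.mem_setOf_eq, Set.mem_iUnion, Set.mem_inter_iff, Set.mem_preimage, Yk]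
    constructor
    · intro h
      exact ⟨_, rfl, h⟩
    · rintro ⟨F, rfl, h⟩
      exact h
  rw [h1]
  refine MeasurableSet.iUnion fun F => MeasurableSet.inter ?_ ?_
  · exact measurable_fst (fibers_Wd k e F)
  · have h3 : Measurable fun p : Tb × (Sym2 ℕ → ℝ) => flowE (cG (graphOfTable p.1) F) F k p.2 e :=
      measurable_flowE_coeff (cf := fun T : Tb => cG (graphOfTable T) F) F k e
        fun S => measurable_cG F S
    have h4 : Measurable fun _ : Tb × (Sym2 ℕ → ℝ) => (k : ℝ) / 2 := measurable_const
    exact measurableSet_lt h4 h3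

lemma measurable_dst (u v : ℕ) : Measurable fun T : Tb => dst (graphOfTable T) u v :=
  measurable_sInf_nat (fun T n => WalkLe (graphOfTable T) n u v)
    (fun n => measurableSet_walkLe n u v)

lemma measurable_noise_joint {τ : unitInterval → Option (ℕ × ℕ) → ℝ} (hτ : Measurable τ)
    (e : Sym2 ℕ) :
    Measurable fun p : Tb × (ℕ → unitInterval) => noise (graphOfTable p.1) τ p.2 e := by
  unfold noise
  exact measurable_NN (D := fun p : Tb × (ℕ → unitInterval) => dst (graphOfTable p.1))
    (o := fun p => oL τ p.2) (s := fun p => sL τ p.2)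
    (fun u v => (measurable_dst u v).comp measurable_fst)
    (fun u => (measurable_oL hτ u).comp measurable_snd)
    (fun q => (measurable_sL hτ q).comp measurable_snd) e

/-- The event defining the rule is jointly measurable. -/
theorem measurableSet_Xlim_joint {τ : unitInterval → Option (ℕ × ℕ) → ℝ} (hτ : Measurable τ)
    (e : Sym2 ℕ) :
    MeasurableSet {p : Tb × (ℕ → unitInterval) |
      Xlim (cG (graphOfTable p.1)) (Wd (graphOfTable p.1)) (noise (graphOfTable p.1) τ p.2) e} := by
  have h1 : {p : Tb × (ℕ → unitInterval) |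
      Xlim (cG (graphOfTable p.1)) (Wd (graphOfTable p.1)) (noise (graphOfTable p.1) τ p.2) e}
      = ⋂ a : ℕ, ⋃ b : ℕ, ({_p | a ≤ b} ∩ {p : Tb × (ℕ → unitInterval) |
          Yk (cG (graphOfTable p.1)) (Wd (graphOfTable p.1) b e) b
            (noise (graphOfTable p.1) τ p.2) e}) := by
    ext p
    simp only [Xlim, Filter.frequently_atTop, Set.mem_setOf_eq, Set.mem_iInter, Set.mem_iUnion,
      Set.mem_inter_iff, exists_prop]
  rw [h1]
  refine MeasurableSet.iInter fun a => MeasurableSet.iUnion fun b => MeasurableSet.inter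
    (MeasurableSet.const _) ?_
  have h2 : Measurable fun p : Tb × (ℕ → unitInterval) =>
      (p.1, noise (graphOfTable p.1) τ p.2) :=
    measurable_fst.prodMk (measurable_pi_lambda _ fun e' => measurable_noise_joint hτ e')
  exact h2 (measurableSet_Yk_joint b e)

end Crest.Agent.Lib.UST
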