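import Crest.Agent.Lib.UST.NegCorr
import Crest.Prelude.Def_SpanningTrees

/-!
# Monotonicity of the spanning tree probabilities in the graph
-/

set_option autoImplicit false
set_option linter.unusedSectionVars false
set_option linter.unusedSimpArgs false
set_option linter.unusedVariables false

namespace Crest.Agent.Lib.UST

open Finset Filter SimpleGraph Crest.Agent.Lib.SRFlow

open scoped Classical

/-- The indicator coefficient of the spanning trees. -/
noncomputable def treeC (V : Finset ℕ) (Ed : Finset (Sym2 ℕ)) : Finset ↥Ed → ℝ :=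
  fun S' => if S'.map (Function.Embedding.subtype _) ∈ TreesOn V Ed then 1 else 0

lemma TreesOn_subset (V : Finset ℕ) (Ed : Finset (Sym2 ℕ)) : TreesOn V Ed ⊆ Ed.powerset :=
  Finset.filter_subset _ _

lemma mem_TreesOn {V : Finset ℕ} {Ed A : Finset (Sym2 ℕ)} :
    A ∈ TreesOn V Ed ↔ A ⊆ Ed ∧ ConnOn V A ∧ A.card + 1 = V.card := by
  unfold TreesOn
  rw [Finset.mem_filter, Finset.mem_powerset]

/-- Sums over the subsets of `↥Ed`, weighted by `treeC`, are sums over the spanning trees. -/
lemma sum_treeC {M : Type*} [AddCommMonoid M] (V : Finset ℕ) (Ed : Finset (Sym2 ℕ))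
    (g : Finset (Sym2 ℕ) → M) :
    ∑ S' : Finset ↥Ed, (if S'.map (Function.Embedding.subtype _) ∈ TreesOn V Ed
      then g (S'.map (Function.Embedding.subtype _)) else 0) = ∑ A ∈ TreesOn V Ed, g A := by
  rw [sum_powerset_eq Ed (fun A => if A ∈ TreesOn V Ed then g A else 0)]
  rw [← Finset.sum_filter]
  refine Finset.sum_congr ?_ fun _ _ => rfl
  ext A
  rw [Finset.mem_filter]
  exact ⟨fun h => h.2, fun h => ⟨TreesOn_subset V Ed h, h⟩⟩

lemma stab_treeC {V : Finset ℕ} {Ed : Finset (Sym2 ℕ)} (hV : V.Nonempty) (hEd : EdOK V Ed)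
    (hconn : ConnOn V Ed) : Stab (treeC V Ed) := by
  intro z hz
  let z' : Sym2 ℕ → ℂ := fun e => if h : e ∈ Ed then z ⟨e, h⟩ else 1
  have hz' : ∀ e ∈ Ed, 0 < (z' e).im ∨ ((z' e).im = 0 ∧ 0 < (z' e).re) := by
    intro e he
    left
    simp only [z', he, dif_pos]
    exact hz _
  have h1 := tree_poly_ne_zero hV hEd hconn hz'
  rw [← sum_treeC V Ed (fun A => ∏ e ∈ A, z' e)] at h1
  convert h1 using 1
  refine Finset.sum_congr rfl fun S' _ => ?_
  rw [Finset.prod_map]
  have h2 : ∏ i ∈ S', z i = ∏ x ∈ S', z' ((Function.Embedding.subtype _) x) := by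
    refine Finset.prod_congr rfl fun i _ => ?_
    simp [z', i.2]
  rw [h2]
  unfold treeC
  split_ifs
  · simp
  · simp

lemma adm_treeC {V : Finset ℕ} {Ed : Finset (Sym2 ℕ)} (hV : V.Nonempty) (hEd : EdOK V Ed)
    (hconn : ConnOn V Ed) : Adm (treeC V Ed) := by
  refine ⟨fun S => ?_, ?_⟩
  · unfold treeC
    split_ifs <;> norm_num
  · have h1 : ∑ S', treeC V Ed S' = ((TreesOn V Ed).card : ℝ) := by
      have := sum_treeC V Ed (fun _ => (1 : ℝ))
      rw [Finset.sum_const, nsmul_eq_mul, mul_one] at this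
      exact this
    rw [h1]
    exact_mod_cast Finset.card_pos.mpr (TreesOn_nonempty hV hEd hconn)

/-- Negative correlation, for counts of spanning trees. -/
theorem tree_neg_corr {V : Finset ℕ} {Ed F : Finset (Sym2 ℕ)} (hV : V.Nonempty) (hEd : EdOK V Ed)
    (hconn : ConnOn V Ed) (hF : F ⊆ Ed) {g : Sym2 ℕ} (hgE : g ∈ Ed) (hg : g ∉ F) :
    (((TreesOn V Ed).filter fun A => F ⊆ A ∧ g ∈ A).card : ℝ) * ((TreesOn V Ed).card : ℝ)
      ≤ (((TreesOn V Ed).filter fun A => F ⊆ A).card : ℝ)
        * (((TreesOn V Ed).filter fun A => g ∈ A).card : ℝ) := by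
  set F' : Finset ↥Ed := F.subtype (· ∈ Ed) with hF'
  set g' : ↥Ed := ⟨g, hgE⟩ with hg'
  have hg'F : g' ∉ F' := by
    simpa [hF', hg'] using hg
  have hsub : ∀ S' : Finset ↥Ed, F' ⊆ S' ↔ F ⊆ S'.map (Function.Embedding.subtype _) := by
    intro S'
    constructor
    · intro h x hx
      have : (⟨x, hF hx⟩ : ↥Ed) ∈ S' := h (by simpa [hF'] using hx)
      exact Finset.mem_map.mpr ⟨_, this, rfl⟩
    · intro h x hx
      have h1 : (x : Sym2 ℕ) ∈ F := by simpa [hF'] using hx
      obtain ⟨y, hy, hyx⟩ := Finset.mem_map.mp (h h1)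
      have : y = x := Subtype.ext hyx
      rwa [← this]
  have hind : ∀ S' : Finset ↥Ed, ind g' S'
      = if g ∈ S'.map (Function.Embedding.subtype _) then 1 else 0 := by
    intro S'
    have : g' ∈ S' ↔ g ∈ S'.map (Function.Embedding.subtype _) := by
      constructor
      · intro h
        exact Finset.mem_map.mpr ⟨_, h, rfl⟩
      · intro h
        obtain ⟨y, hy, hyx⟩ := Finset.mem_map.mp h
        have : y = g' := Subtype.ext hyx
        rwa [← this]
    unfold ind
    simp only [this]
  have hmain := neg_corr (stab_treeC hV hEd hconn) (adm_treeC hV hEd hconn) hg'F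
  -- translate the four sums
  have e1 : (∑ S, if F' ⊆ S then treeC V Ed S * ind g' S else 0)
      = (((TreesOn V Ed).filter fun A => F ⊆ A ∧ g ∈ A).card : ℝ) := by
    rw [Finset.card_filter, Nat.cast_sum, ← sum_treeC V Ed fun A =>
      (((if F ⊆ A ∧ g ∈ A then 1 else 0 : ℕ)) : ℝ)]
    refine Finset.sum_congr rfl fun S' _ => ?_
    unfold treeC
    rw [hind]
    simp only [hsub]
    split_ifs <;> simp_all
  have e2 : (∑ S, treeC V Ed S) = ((TreesOn V Ed).card : ℝ) := by
    have := sum_treeC V Ed (fun _ => (1 : ℝ))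
    rw [Finset.sum_const, nsmul_eq_mul, mul_one] at this
    exact this
  have e3 : (∑ S, if F' ⊆ S then treeC V Ed S else 0)
      = (((TreesOn V Ed).filter fun A => F ⊆ A).card : ℝ) := by
    rw [Finset.card_filter, Nat.cast_sum, ← sum_treeC V Ed fun A =>
      (((if F ⊆ A then 1 else 0 : ℕ)) : ℝ)]
    refine Finset.sum_congr rfl fun S' _ => ?_
    unfold treeC
    simp only [hsub]
    split_ifs <;> simp_all
  have e4 : (∑ S, treeC V Ed S * ind g' S)
      = (((TreesOn V Ed).filter fun A => g ∈ A).card : ℝ) := by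
    rw [Finset.card_filter, Nat.cast_sum, ← sum_treeC V Ed fun A =>
      (((if g ∈ A then 1 else 0 : ℕ)) : ℝ)]
    refine Finset.sum_congr rfl fun S' _ => ?_
    unfold treeC
    rw [hind]
    split_ifs <;> simp_all
  rw [e1, e2, e3, e4] at hmain
  exact hmain

/-- The probability that the uniform spanning tree of `(V, Ed)` contains `F`. -/
noncomputable def ustG (V : Finset ℕ) (Ed F : Finset (Sym2 ℕ)) : ℝ :=
  (((TreesOn V Ed).filter fun A => F ⊆ A).card : ℝ) / ((TreesOn V Ed).card : ℝ)

/-- Removing an edge does not decrease the probability of containing `F`. -/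
theorem ustG_erase {V : Finset ℕ} {Ed F : Finset (Sym2 ℕ)} (hV : V.Nonempty) (hEd : EdOK V Ed)
    (hF : F ⊆ Ed) {g : Sym2 ℕ} (hgE : g ∈ Ed) (hg : g ∉ F) (hconn' : ConnOn V (Ed.erase g)) :
    ustG V Ed F ≤ ustG V (Ed.erase g) F := by
  have hconn : ConnOn V Ed := fun x hx y hy =>
    (hconn' x hx y hy).mono (fromEdgeSet_mono (Finset.coe_subset.mpr (Finset.erase_subset _ _)))
  have hEd' : EdOK V (Ed.erase g) := fun e he => hEd e (Finset.mem_of_mem_erase he)
  have htrees : TreesOn V (Ed.erase g) = (TreesOn V Ed).filter fun A => g ∉ A := by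
    ext A
    rw [Finset.mem_filter, mem_TreesOn, mem_TreesOn, Finset.subset_erase]
    tauto
  have hpos : (0 : ℝ) < ((TreesOn V Ed).card : ℝ) := by
    exact_mod_cast Finset.card_pos.mpr (TreesOn_nonempty hV hEd hconn)
  have hpos' : (0 : ℝ) < ((TreesOn V (Ed.erase g)).card : ℝ) := by
    exact_mod_cast Finset.card_pos.mpr (TreesOn_nonempty hV hEd' hconn')
  have hcorr := tree_neg_corr hV hEd hconn hF hgE hg
  unfold ustG
  rw [div_le_div_iff₀ hpos hpos']
  -- the complementary counts
  have h1 : ((TreesOn V (Ed.erase g)).card : ℝ)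
      = ((TreesOn V Ed).card : ℝ) - (((TreesOn V Ed).filter fun A => g ∈ A).card : ℝ) := by
    rw [htrees]
    have := Finset.card_filter_add_card_filter_not (s := TreesOn V Ed) (fun A => g ∈ A)
    rw [← this]
    push_cast
    ring
  have h2 : (((TreesOn V (Ed.erase g)).filter fun A => F ⊆ A).card : ℝ)
      = (((TreesOn V Ed).filter fun A => F ⊆ A).card : ℝ)
        - (((TreesOn V Ed).filter fun A => F ⊆ A ∧ g ∈ A).card : ℝ) := by
    rw [htrees, Finset.filter_filter]
    have := Finset.card_filter_add_card_filter_not (s := (TreesOn V Ed).filter fun A => F ⊆ A)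
      (fun A => g ∈ A)
    rw [Finset.filter_filter, Finset.filter_filter] at this
    rw [← this]
    push_cast
    have h3 : ((TreesOn V Ed).filter fun A => g ∉ A ∧ F ⊆ A)
        = (TreesOn V Ed).filter fun A => F ⊆ A ∧ g ∉ A := by
      refine Finset.filter_congr fun A _ => ?_
      tauto
    rw [h3]
    ring
  rw [h1, h2]
  nlinarith

/-! ### Adding a pendant vertex -/

lemma connOn_insert {V : Finset ℕ} {A : Finset (Sym2 ℕ)} (hA : ConnOn V A) {u v : ℕ} (hu : u ∈ V)
    (huv : u ≠ v) : ConnOn (insert v V) (insert s(u, v) A) := by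
  set H := fromEdgeSet ((insert s(u, v) A : Finset (Sym2 ℕ)) : Set (Sym2 ℕ)) with hH
  have hmono : ∀ x ∈ V, ∀ y ∈ V, H.Reachable x y := fun x hx y hy =>
    (hA x hx y hy).mono (fromEdgeSet_mono (by simp [Set.subset_insert]))
  have hadj : H.Adj u v := by
    rw [hH, fromEdgeSet_adj]
    exact ⟨by simp, huv⟩
  have hv : ∀ y ∈ V, H.Reachable v y := fun y hy => hadj.symm.reachable.trans (hmono u hu y hy)
  intro x hx y hy
  rw [Finset.mem_insert] at hx hy
  rcases hx with rfl | hx <;> rcases hy with rfl | hy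
  · exact Reachable.refl _
  · exact hv y hy
  · exact (hv x hx).symm
  · exact hmono x hx y hy

lemma connOn_of_insert {V : Finset ℕ} {A : Finset (Sym2 ℕ)} {u v : ℕ} (hu : u ∈ V) (hv : v ∉ V)
    (hA : ∀ e ∈ A, ∀ x ∈ e, x ≠ v)
    (h : ConnOn (insert v V) (insert s(u, v) A)) : ConnOn V A := by
  let ρ : ℕ → ℕ := fun a => if a = v then u else a
  set H := fromEdgeSet ((insert s(u, v) A : Finset (Sym2 ℕ)) : Set (Sym2 ℕ)) with hH
  set H₀ := fromEdgeSet ((A : Finset (Sym2 ℕ)) : Set (Sym2 ℕ)) with hH₀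
  have hstep : ∀ a b, H.Adj a b → H₀.Reachable (ρ a) (ρ b) := by
    intro a b hab
    rw [hH, fromEdgeSet_adj] at hab
    obtain ⟨h1, hne⟩ := hab
    simp only [Finset.coe_insert, Set.mem_insert_iff, Finset.mem_coe, Sym2.eq_iff] at h1
    rcases h1 with (⟨rfl, rfl⟩ | ⟨rfl, rfl⟩) | h1
    · have : ρ a = ρ b := by
        simp [ρ, hne, (fun h => hv (h ▸ hu) : a ≠ b)]
      rw [this]
    · have : ρ a = ρ b := by
        simp [ρ, hne, hne.symm]
      rw [this]
    · have ha : a ≠ v := hA _ h1 a (Sym2.mem_mk_left a b)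
      have hb : b ≠ v := hA _ h1 b (Sym2.mem_mk_right a b)
      simp only [ρ, ha, hb, if_false]
      refine Adj.reachable ?_
      rw [hH₀, fromEdgeSet_adj]
      exact ⟨h1, hne⟩
  have hwalk : ∀ {a b : ℕ}, H.Walk a b → H₀.Reachable (ρ a) (ρ b) := by
    intro a b p
    induction p with
    | nil => exact Reachable.refl _
    | cons hadj _ ih => exact (hstep _ _ hadj).trans ih
  intro x hx y hy
  obtain ⟨p⟩ := h x (Finset.mem_insert_of_mem hx) y (Finset.mem_insert_of_mem hy)
  have hxv : x ≠ v := fun h => hv (h ▸ hx)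
  have hyv : y ≠ v := fun h => hv (h ▸ hy)
  have := hwalk p
  simpa [ρ, hxv, hyv] using this

/-- The spanning trees after adding a pendant vertex. -/
theorem TreesOn_insert {V : Finset ℕ} {Ed : Finset (Sym2 ℕ)} (hEd : EdOK V Ed) {u v : ℕ}
    (hu : u ∈ V) (hv : v ∉ V) :
    TreesOn (insert v V) (insert s(u, v) Ed) = (TreesOn V Ed).image (insert s(u, v)) := by
  have huv : u ≠ v := fun h => hv (h ▸ hu)
  have hgEd : s(u, v) ∉ Ed := fun h => hv ((hEd _ h).2 v (Sym2.mem_mk_right u v))
  have hnot : ∀ e ∈ Ed, ∀ x ∈ e, x ≠ v := fun e he x hx hxv => hv (hxv ▸ (hEd e he).2 x hx)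
  ext A
  rw [Finset.mem_image, mem_TreesOn]
  constructor
  · rintro ⟨hA, hconn, hcard⟩
    -- the new edge belongs to the tree
    have hgA : s(u, v) ∈ A := by
      by_contra hg
      obtain ⟨p⟩ := hconn v (Finset.mem_insert_self _ _) u (Finset.mem_insert_of_mem hu)
      cases p with
      | nil => exact huv rfl
      | @cons _ w _ hadj _ =>
        rw [fromEdgeSet_adj] at hadj
        have h1 := hA hadj.1
        rw [Finset.mem_insert] at h1
        rcases h1 with h1 | h1
        · rw [Finset.mem_coe] at *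
          rw [Sym2.eq_iff] at h1
          rcases h1 with ⟨h2, h3⟩ | ⟨h2, h3⟩
          · exact huv h2.symm
          · subst h3
            exact hg (by rw [Sym2.eq_swap]; exact hadj.1)
        · exact hnot _ h1 v (Sym2.mem_mk_left v w) rfl
    refine ⟨A.erase s(u, v), ?_, Finset.insert_erase hgA⟩
    have hsubA : A.erase s(u, v) ⊆ Ed := by
      intro x hx
      have h1 := Finset.mem_of_mem_erase hx
      have h2 := hA h1
      rw [Finset.mem_insert] at h2
      rcases h2 with h2 | h2
      · exact absurd h2 (Finset.ne_of_mem_erase hx)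
      · exact h2
    rw [mem_TreesOn]
    refine ⟨hsubA, ?_, ?_⟩
    · refine connOn_of_insert hu hv (fun e he => hnot e (hsubA he)) ?_
      rw [Finset.insert_erase hgA]
      exact hconn
    · rw [Finset.card_erase_of_mem hgA]
      rw [Finset.card_insert_of_notMem hv] at hcard
      have : 0 < A.card := Finset.card_pos.mpr ⟨_, hgA⟩
      omega
  · rintro ⟨A₀, hA₀, rfl⟩
    rw [mem_TreesOn] at hA₀
    obtain ⟨hsub, hconn, hcard⟩ := hA₀
    refine ⟨Finset.insert_subset_insert _ hsub, connOn_insert hconn hu huv, ?_⟩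
    rw [Finset.card_insert_of_notMem (fun h => hgEd (hsub h)), Finset.card_insert_of_notMem hv]
    omega

/-- Adding a pendant vertex does not change the probability of containing `F`. -/
theorem ustG_insert {V : Finset ℕ} {Ed F : Finset (Sym2 ℕ)} (hEd : EdOK V Ed) (hF : F ⊆ Ed)
    {u v : ℕ} (hu : u ∈ V) (hv : v ∉ V) :
    ustG (insert v V) (insert s(u, v) Ed) F = ustG V Ed F := by
  have hgEd : s(u, v) ∉ Ed := fun h => hv ((hEd _ h).2 v (Sym2.mem_mk_right u v))
  have hinj : Set.InjOn (insert s(u, v) : Finset (Sym2 ℕ) → Finset (Sym2 ℕ)) (TreesOn V Ed) := by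
    intro A hA B hB hAB
    have hgA : s(u, v) ∉ A := fun h => hgEd ((mem_TreesOn.mp (Finset.mem_coe.mp hA)).1 h)
    have hgB : s(u, v) ∉ B := fun h => hgEd ((mem_TreesOn.mp (Finset.mem_coe.mp hB)).1 h)
    have := congrArg (fun C => C.erase s(u, v)) hAB
    simpa [Finset.erase_insert hgA, Finset.erase_insert hgB] using this
  unfold ustG
  rw [TreesOn_insert hEd hu hv, Finset.card_image_of_injOn hinj, Finset.filter_image,
    Finset.card_image_of_injOn (hinj.mono (Finset.coe_subset.mpr (Finset.filter_subset _ _)))]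
  congr 2
  refine congrArg _ (Finset.filter_congr fun A hA => ?_)
  have hF' : s(u, v) ∉ F := fun h => hgEd (hF h)
  constructor
  · intro h x hx
    have := h hx
    rw [Finset.mem_insert] at this
    rcases this with h2 | h2
    · exact absurd (h2 ▸ hx) hF'
    · exact h2
  · intro h x hx
    exact Finset.mem_insert_of_mem (h hx)

/-- Crossing a cut along a walk. -/
lemma exists_crossing {H : SimpleGraph ℕ} {V : Finset ℕ} {x y : ℕ} (p : H.Walk x y) (hx : x ∈ V)
    (hy : y ∉ V) : ∃ u v, u ∈ V ∧ v ∉ V ∧ H.Adj u v := by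
  induction p with
  | nil => exact absurd hx hy
  | @cons a b c h q ih =>
    by_cases hb : b ∈ V
    · exact ih hb hy
    · exact ⟨a, b, hx, hb, h⟩

/-- **Monotonicity of the uniform spanning tree in the graph.** -/
theorem ustG_mono {V V' : Finset ℕ} {Ed Ed' F : Finset (Sym2 ℕ)} (hV : V.Nonempty)
    (hEd : EdOK V Ed) (hconn : ConnOn V Ed) (hEd' : EdOK V' Ed') (hconn' : ConnOn V' Ed')
    (hVV' : V ⊆ V') (hEE' : Ed ⊆ Ed') (hF : F ⊆ Ed) : ustG V' Ed' F ≤ ustG V Ed F := by
  induction hn : (V' \ V).card + (Ed' \ Ed).card using Nat.strong_induction_on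
    generalizing V Ed with
  | _ n ih =>
    by_cases hVeq : V = V'
    · subst hVeq
      by_cases hEeq : Ed = Ed'
      · subst hEeq
        exact le_rfl
      · -- add an edge
        obtain ⟨g, hg, hgE⟩ : ∃ g ∈ Ed', g ∉ Ed := by
          by_contra hcon
          push Not at hcon
          exact hEeq (Finset.Subset.antisymm hEE' hcon)
        have hsub : insert g Ed ⊆ Ed' := Finset.insert_subset hg hEE'
        have hE1 : EdOK V (insert g Ed) := fun e he => hEd' e (hsub he)
        have hconn1 : ConnOn V (insert g Ed) := fun x hx y hy =>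
          (hconn x hx y hy).mono (fromEdgeSet_mono (by simp [Set.subset_insert]))
        have hcard : (Ed' \ insert g Ed).card < (Ed' \ Ed).card := by
          refine Finset.card_lt_card ⟨fun x hx => ?_, fun h => ?_⟩
          · rw [Finset.mem_sdiff, Finset.mem_insert, not_or] at hx
            exact Finset.mem_sdiff.mpr ⟨hx.1, hx.2.2⟩
          · have := h (Finset.mem_sdiff.mpr ⟨hg, hgE⟩)
            rw [Finset.mem_sdiff] at this
            exact this.2 (Finset.mem_insert_self _ _)
        have h1 := ih _ (by rw [← hn]; simp only [sdiff_self, Finset.card_empty, zero_add]; simpa using hcard)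
          hV hE1 hconn1 subset_rfl hsub (hF.trans (Finset.subset_insert _ _)) rfl
        have h2 := ustG_erase (V := V) (Ed := insert g Ed) (F := F) (g := g) hV hE1
          (hF.trans (Finset.subset_insert _ _)) (Finset.mem_insert_self _ _)
          (fun h => hgE (hF h)) (by rwa [Finset.erase_insert hgE])
        rw [Finset.erase_insert hgE] at h2
        exact h1.trans h2
    · -- add a pendant vertex
      obtain ⟨v₀, hv₀, hv₀V⟩ : ∃ v₀ ∈ V', v₀ ∉ V := by
        by_contra hcon
        push Not at hcon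
        exact hVeq (Finset.Subset.antisymm hVV' hcon)
      obtain ⟨x, hx⟩ := hV
      obtain ⟨p⟩ := hconn' x (hVV' hx) v₀ hv₀
      obtain ⟨u, v, hu, hv, hadj⟩ := exists_crossing p hx hv₀V
      rw [fromEdgeSet_adj] at hadj
      have hgE' : s(u, v) ∈ Ed' := hadj.1
      have hvV' : v ∈ V' := (hEd' _ hgE').2 v (Sym2.mem_mk_right u v)
      have huv : u ≠ v := hadj.2
      have hE1 : EdOK (insert v V) (insert s(u, v) Ed) := by
        intro e he
        rw [Finset.mem_insert] at he
        rcases he with rfl | he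
        · refine ⟨by simpa using huv, fun y hy => ?_⟩
          rw [Sym2.mem_iff] at hy
          rcases hy with rfl | rfl
          · exact Finset.mem_insert_of_mem hu
          · exact Finset.mem_insert_self _ _
        · exact ⟨(hEd e he).1, fun y hy => Finset.mem_insert_of_mem ((hEd e he).2 y hy)⟩
      have hconn1 := connOn_insert hconn hu huv
      have hsubV : insert v V ⊆ V' := Finset.insert_subset hvV' hVV'
      have hsubE : insert s(u, v) Ed ⊆ Ed' := Finset.insert_subset hgE' hEE'
      have hcardV : (V' \ insert v V).card < (V' \ V).card := by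
        refine Finset.card_lt_card ⟨fun y hy => ?_, fun h => ?_⟩
        · rw [Finset.mem_sdiff, Finset.mem_insert, not_or] at hy
          exact Finset.mem_sdiff.mpr ⟨hy.1, hy.2.2⟩
        · have := h (Finset.mem_sdiff.mpr ⟨hvV', hv⟩)
          rw [Finset.mem_sdiff] at this
          exact this.2 (Finset.mem_insert_self _ _)
      have hcardE : (Ed' \ insert s(u, v) Ed).card ≤ (Ed' \ Ed).card :=
        Finset.card_le_card fun y hy => by
          rw [Finset.mem_sdiff, Finset.mem_insert, not_or] at hy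
          exact Finset.mem_sdiff.mpr ⟨hy.1, hy.2.2⟩
      have h1 := ih _ (by rw [← hn]; omega) ⟨v, Finset.mem_insert_self _ _⟩ hE1 hconn1 hsubV hsubE
        (hF.trans (Finset.subset_insert _ _)) rfl
      rwa [ustG_insert hEd hF hu hv] at h1

end Crest.Agent.Lib.UST
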