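import Crest.Agent.Lib.UST.Kirchhoff
import Crest.Agent.Lib.SRFlow.Stable

/-!
# Negative correlation of an increasing product of indicators and a further indicator
-/

set_option autoImplicit false
set_option linter.unusedSectionVars false
set_option linter.unusedSimpArgs false
set_option linter.unusedVariables false

namespace Crest.Agent.Lib.UST

open Finset Filter Crest.Agent.Lib.SRFlow

variable {ι : Type*} [Fintype ι] [DecidableEq ι] {c : Finset ι → ℝ}

/-- The field which is `s` on `F`. -/
def onF (F : Finset ι) (s : ℝ) : ι → ℝ := fun i => if i ∈ F then s else 0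

lemma sum_onF (F S : Finset ι) (s : ℝ) : ∑ i ∈ S, onF F s i = s * ((S ∩ F).card : ℝ) := by
  unfold onF
  rw [Finset.sum_ite_mem, Finset.sum_const, nsmul_eq_mul, mul_comm]

lemma hasDerivAt_Et_onF (hc : Adm c) (F : Finset ι) (f : Finset ι → ℝ) (s : ℝ) :
    HasDerivAt (fun s => Et c (onF F s) f) (∑ i ∈ F, Covt c (onF F s) f (ind i)) s := by
  have h1 : HasDerivAt (onF F) (fun i => if i ∈ F then (1 : ℝ) else 0) s := by
    rw [hasDerivAt_pi]
    intro i
    by_cases hi : i ∈ F
    · have h : (fun s => onF F s i) = fun s => s := by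
        funext t
        simp [onF, hi]
      rw [h]
      simp only [hi, if_true]
      exact hasDerivAt_id' s
    · have h : (fun s => onF F s i) = fun _ => 0 := by
        funext t
        simp [onF, hi]
      rw [h]
      simp only [hi, if_false]
      exact hasDerivAt_const s (0 : ℝ)
  have h2 := (hasFDerivAt_Et hc (onF F s) f).comp_hasDerivAt s h1
  refine (show HasDerivAt (fun s => Et c (onF F s) f) _ s from h2).congr_deriv ?_
  rw [linF_apply]
  simp only [mul_ite, mul_one, mul_zero]
  rw [Finset.sum_ite_mem, Finset.univ_inter]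

lemma Et_onF_antitone (hst : Stab c) (hc : Adm c) {F : Finset ι} {g : ι} (hg : g ∉ F) :
    Antitone fun s => Et c (onF F s) (ind g) := by
  refine antitone_of_hasDerivAt_nonpos (hasDerivAt_Et_onF hc F (ind g)) fun s => ?_
  refine Finset.sum_nonpos fun i hi => ?_
  have hne : g ≠ i := fun h => hg (by rw [h]; exact hi)
  exact Covt_ind_nonpos hst hc hne _

lemma Et_onF_zero (F : Finset ι) (f : Finset ι → ℝ) :
    Et c (onF F 0) f = (∑ S, c S * f S) / ∑ S, c S := by
  unfold Et Zt wt
  simp only [sum_onF, zero_mul, Real.exp_zero, mul_one]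

lemma Et_onF_limit (F : Finset ι) (f : Finset ι → ℝ) (hP : 0 < ∑ S, if F ⊆ S then c S else 0) :
    Tendsto (fun s => Et c (onF F s) f) atTop
      (nhds ((∑ S, if F ⊆ S then c S * f S else 0) / ∑ S, if F ⊆ S then c S else 0)) := by
  have hlim : ∀ S : Finset ι, Tendsto (fun s : ℝ => Real.exp (s * (((S ∩ F).card : ℝ) - F.card)))
      atTop (nhds (if F ⊆ S then 1 else 0)) := by
    intro S
    by_cases hS : F ⊆ S
    · have : S ∩ F = F := Finset.inter_eq_right.mpr hS
      simp only [this, hS, if_true, sub_self, mul_zero, Real.exp_zero]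
      exact tendsto_const_nhds
    · simp only [hS, if_false]
      have hcard : (S ∩ F).card < F.card := by
        refine Finset.card_lt_card ⟨Finset.inter_subset_right, fun h => hS ?_⟩
        exact fun x hx => (Finset.mem_inter.mp (h hx)).1
      have hneg : ((S ∩ F).card : ℝ) - F.card < 0 := by
        have : ((S ∩ F).card : ℝ) < F.card := by exact_mod_cast hcard
        linarith
      exact Real.tendsto_exp_atBot.comp (tendsto_id.atTop_mul_const_of_neg hneg)
  have hnum : Tendsto (fun s : ℝ => ∑ S, c S * f S * Real.exp (s * (((S ∩ F).card : ℝ) - F.card)))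
      atTop (nhds (∑ S, if F ⊆ S then c S * f S else 0)) := by
    refine tendsto_finset_sum _ fun S _ => ?_
    have := (hlim S).const_mul (c S * f S)
    by_cases hS : F ⊆ S
    · simpa [hS] using this
    · simpa [hS] using this
  have hden : Tendsto (fun s : ℝ => ∑ S, c S * Real.exp (s * (((S ∩ F).card : ℝ) - F.card)))
      atTop (nhds (∑ S, if F ⊆ S then c S else 0)) := by
    refine tendsto_finset_sum _ fun S _ => ?_
    have := (hlim S).const_mul (c S)
    by_cases hS : F ⊆ S
    · simpa [hS] using this
    · simpa [hS] using this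
  refine (hnum.div hden hP.ne').congr fun s => ?_
  unfold Et Zt wt
  simp only [sum_onF]
  have hexp : ∀ S : Finset ι, Real.exp (s * ((S ∩ F).card : ℝ))
      = Real.exp (s * (((S ∩ F).card : ℝ) - F.card)) * Real.exp (s * F.card) := by
    intro S
    rw [← Real.exp_add]
    congr 1
    ring
  simp_rw [hexp]
  have h1 : ∑ S, c S * (Real.exp (s * (((S ∩ F).card : ℝ) - F.card)) * Real.exp (s * F.card)) * f S
      = (∑ S, c S * f S * Real.exp (s * (((S ∩ F).card : ℝ) - F.card))) * Real.exp (s * F.card) := by
    rw [Finset.sum_mul]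
    refine Finset.sum_congr rfl fun S _ => ?_
    ring
  have h2 : ∑ S, c S * (Real.exp (s * (((S ∩ F).card : ℝ) - F.card)) * Real.exp (s * F.card))
      = (∑ S, c S * Real.exp (s * (((S ∩ F).card : ℝ) - F.card))) * Real.exp (s * F.card) := by
    rw [Finset.sum_mul]
    refine Finset.sum_congr rfl fun S _ => ?_
    ring
  rw [h1, h2, mul_div_mul_right _ _ (Real.exp_pos _).ne']
  rfl

/-- **Negative correlation** of the event `F ⊆ S` and the event `g ∈ S`. -/
theorem neg_corr (hst : Stab c) (hc : Adm c) {F : Finset ι} {g : ι} (hg : g ∉ F) :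
    (∑ S, if F ⊆ S then c S * ind g S else 0) * (∑ S, c S)
      ≤ (∑ S, if F ⊆ S then c S else 0) * ∑ S, c S * ind g S := by
  have hZ := hc.pos
  have hP0 : 0 ≤ ∑ S, if F ⊆ S then c S else 0 := Finset.sum_nonneg fun S _ => by
    split_ifs
    · exact hc.nonneg S
    · exact le_rfl
  rcases hP0.eq_or_lt with hP | hP
  · -- the event is null
    have h1 : ∀ S, F ⊆ S → c S = 0 := by
      intro S hS
      have := (Finset.sum_eq_zero_iff_of_nonneg (fun S _ => by
        split_ifs
        · exact hc.nonneg S
        · exact le_rfl)).mp hP.symm S (Finset.mem_univ S)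
      simpa [hS] using this
    have h2 : (∑ S, if F ⊆ S then c S * ind g S else 0) = 0 := by
      refine Finset.sum_eq_zero fun S _ => ?_
      split_ifs with hS
      · rw [h1 S hS, zero_mul]
      · rfl
    rw [h2, ← hP, zero_mul, zero_mul]
  · have hlim := Et_onF_limit (c := c) F (ind g) hP
    have hle : ∀ s : ℝ, 0 ≤ s → Et c (onF F s) (ind g) ≤ Et c (onF F 0) (ind g) :=
      fun s hs => Et_onF_antitone hst hc hg hs
    have h1 : (∑ S, if F ⊆ S then c S * ind g S else 0) / (∑ S, if F ⊆ S then c S else 0)
        ≤ Et c (onF F 0) (ind g) :=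
      le_of_tendsto hlim ((eventually_ge_atTop 0).mono fun s hs => hle s hs)
    rw [Et_onF_zero, div_le_div_iff₀ hP hZ] at h1
    linarith

end Crest.Agent.Lib.UST
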