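import Crest.Agent.Lib.UST.Ball
import Crest.Prelude.Def_Labels
import Mathlib.Probability.Independence.InfinitePi

/-!
# Independent Gaussian noise on the pairs from labels on the vertices

The noise of a pair is read from the label of its endpoint of lower rank, at the coordinate given
by the distance of the two endpoints and the rank of the second endpoint in its sphere.
-/

set_option autoImplicit false
set_option linter.unusedSectionVars false
set_option linter.unusedSimpArgs false
set_option linter.unusedVariables false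

namespace Crest.Agent.Lib.UST

open Finset Filter SimpleGraph Crest.Agent.Lib.SRFlow Crest.ProbabilityR.SpanningTrees Topology
open MeasureTheory ProbabilityTheory

open scoped Classical

/-! ### Measurability of counting and of first hitting -/

lemma measurable_ncard {X : Type*} [MeasurableSpace X] (P : X → ℕ → Prop)
    (hP : ∀ n, MeasurableSet {x | P x n}) : Measurable fun x => Set.ncard {n | P x n} := by
  have hfix : ∀ s : Finset ℕ, MeasurableSet {x | {n | P x n} = (s : Set ℕ)} := by
    intro s
    have h1 : {x | {n | P x n} = (s : Set ℕ)} = ⋂ n, {x | P x n ↔ n ∈ s} := by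
      ext x
      simp only [Set.mem_setOf_eq, Set.mem_iInter, Set.ext_iff, Finset.mem_coe]
    rw [h1]
    refine MeasurableSet.iInter fun n => ?_
    by_cases hn : n ∈ s
    · have h2 : {x | P x n ↔ n ∈ s} = {x | P x n} := by
        ext x
        simp [hn]
      rw [h2]
      exact hP n
    · have h2 : {x | P x n ↔ n ∈ s} = {x | P x n}ᶜ := by
        ext x
        simp [hn]
      rw [h2]
      exact (hP n).compl
  have hfin : MeasurableSet {x | {n | P x n}.Finite} := by
    have h1 : {x | {n | P x n}.Finite} = ⋃ s : Finset ℕ, {x | {n | P x n} = (s : Set ℕ)} := by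
      ext x
      simp only [Set.mem_setOf_eq, Set.mem_iUnion]
      constructor
      · intro h
        exact ⟨h.toFinset, by simp⟩
      · rintro ⟨s, hs⟩
        rw [hs]
        exact s.finite_toSet
    rw [h1]
    exact MeasurableSet.iUnion hfix
  refine measurable_to_countable' fun r => ?_
  have h1 : (fun x => Set.ncard {n | P x n}) ⁻¹' {r}
      = (⋃ s : {s : Finset ℕ // s.card = r}, {x | {n | P x n} = ((s.1 : Finset ℕ) : Set ℕ)})
        ∪ ({x | {n | P x n}.Finite}ᶜ ∩ {_x | r = 0}) := by
    ext x
    simp only [Set.mem_preimage, Set.mem_singleton_iff, Set.mem_union, Set.mem_iUnion,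
      Set.mem_setOf_eq, Set.mem_inter_iff, Set.mem_compl_iff]
    constructor
    · intro h
      by_cases hf : {n | P x n}.Finite
      · left
        refine ⟨⟨hf.toFinset, ?_⟩, by simp⟩
        rw [← h, Set.ncard_eq_toFinset_card _ hf]
      · right
        refine ⟨hf, ?_⟩
        rw [← h]
        exact Set.Infinite.ncard hf
    · rintro (⟨⟨s, hs⟩, hx⟩ | ⟨hf, rfl⟩)
      · rw [hx, Set.ncard_coe_finset]
        exact hs
      · exact Set.Infinite.ncard hf
  rw [h1]
  refine (MeasurableSet.iUnion fun s => hfix _).union (hfin.compl.inter ?_)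
  exact MeasurableSet.const _

lemma measurable_sInf_nat {X : Type*} [MeasurableSpace X] (P : X → ℕ → Prop)
    (hP : ∀ n, MeasurableSet {x | P x n}) : Measurable fun x => sInf {n | P x n} := by
  refine measurable_to_countable' fun r => ?_
  have h1 : (fun x => sInf {n | P x n}) ⁻¹' {r}
      = ({x | P x r} ∩ ⋂ m : {m : ℕ // m < r}, {x | P x m.1}ᶜ)
        ∪ ((⋂ m : ℕ, {x | P x m}ᶜ) ∩ {_x | r = 0}) := by
    ext x
    simp only [Set.mem_preimage, Set.mem_singleton_iff, Set.mem_union, Set.mem_iInter,
      Set.mem_setOf_eq, Set.mem_inter_iff, Set.mem_compl_iff, Subtype.forall]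
    constructor
    · intro h
      by_cases hne : ({n | P x n}).Nonempty
      · left
        rw [← h]
        exact ⟨Nat.sInf_mem hne, fun m hm => Nat.notMem_of_lt_sInf hm⟩
      · right
        rw [Set.not_nonempty_iff_eq_empty] at hne
        refine ⟨fun m hm => ?_, ?_⟩
        · have : m ∈ ({n | P x n} : Set ℕ) := hm
          rw [hne] at this
          exact this
        · rw [← h, hne]
          exact Nat.sInf_empty
    · rintro (⟨h1, h2⟩ | ⟨h1, rfl⟩)
      · apply le_antisymm
        · exact Nat.sInf_le h1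
        · refine le_csInf ⟨r, h1⟩ fun b hb => ?_
          by_contra hlt
          exact h2 b (not_le.mp hlt) hb
      · have : {n | P x n} = ∅ := by
          ext m
          simp only [Set.mem_setOf_eq, Set.mem_empty_iff_false, iff_false]
          exact h1 m
        rw [this]
        exact Nat.sInf_empty
  rw [h1]
  refine ((hP r).inter (MeasurableSet.iInter fun m => (hP _).compl)).union
    ((MeasurableSet.iInter fun m => (hP _).compl).inter ?_)
  exact MeasurableSet.const _

/-! ### The noise as a function of the order and the streams -/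

/-- The index set of the streams. -/
abbrev JJ := ℕ × (ℕ × ℕ)

/-- The rank of `v` among the vertices `w` with `D u w = D u v` for the order `o`. -/
noncomputable def rk (D : ℕ → ℕ → ℕ) (o : ℕ → ℝ) (u v : ℕ) : ℕ :=
  Set.ncard {w | D u w = D u v ∧ o w < o v}

/-- The coordinate of the stream of `u` read for the pair `(u, v)`. -/
noncomputable def idx (D : ℕ → ℕ → ℕ) (o : ℕ → ℝ) (u v : ℕ) : ℕ × ℕ := (D u v, rk D o u v)

/-- The value read by `u` for the pair `(u, v)`. -/
noncomputable def aa (D : ℕ → ℕ → ℕ) (o : ℕ → ℝ) (s : JJ → ℝ) (u v : ℕ) : ℝ :=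
  s (u, idx D o u v)

/-- The value of the unordered pair. -/
noncomputable def ff (D : ℕ → ℕ → ℕ) (o : ℕ → ℝ) (s : JJ → ℝ) (u v : ℕ) : ℝ :=
  if o u < o v then aa D o s u v
  else if o v < o u then aa D o s v u
  else max (aa D o s u v) (aa D o s v u)

lemma ff_symm (D : ℕ → ℕ → ℕ) (o : ℕ → ℝ) (s : JJ → ℝ) (u v : ℕ) :
    ff D o s u v = ff D o s v u := by
  unfold ff
  by_cases h1 : o u < o v
  · have h2 : ¬ o v < o u := not_lt.mpr h1.le
    simp [h1, h2]
  · by_cases h2 : o v < o u
    · simp [h1, h2]
    · simp [h1, h2, max_comm]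

/-- The noise on the pairs. -/
noncomputable def NN (D : ℕ → ℕ → ℕ) (o : ℕ → ℝ) (s : JJ → ℝ) : Sym2 ℕ → ℝ :=
  Sym2.lift ⟨ff D o s, ff_symm D o s⟩

lemma NN_mk (D : ℕ → ℕ → ℕ) (o : ℕ → ℝ) (s : JJ → ℝ) (u v : ℕ) :
    NN D o s s(u, v) = ff D o s u v := rfl

/-- Relabelling of the noise. -/
lemma NN_comap (σ : Equiv.Perm ℕ) (D : ℕ → ℕ → ℕ) (o : ℕ → ℝ) (s : JJ → ℝ) (e : Sym2 ℕ) :
    NN (fun a b => D (σ a) (σ b)) (o ∘ σ) (fun q => s (σ q.1, q.2)) e = NN D o s (shE σ e) := by
  have hrk : ∀ u v, rk (fun a b => D (σ a) (σ b)) (o ∘ σ) u v = rk D o (σ u) (σ v) := by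
    intro u v
    unfold rk
    have h1 : {w | D (σ u) (σ w) = D (σ u) (σ v) ∧ (o ∘ σ) w < (o ∘ σ) v}
        = σ ⁻¹' {w | D (σ u) w = D (σ u) (σ v) ∧ o w < o (σ v)} := rfl
    rw [h1, Set.ncard_preimage_of_injective_subset_range σ.injective (by simp)]
  induction e using Sym2.ind with
  | _ u v =>
    show ff _ _ _ u v = ff _ _ _ (σ u) (σ v)
    unfold ff aa idx
    simp only [Function.comp_apply, hrk]

/-! ### The noise is the composition with an injective map -/

section Inj

variable {D : ℕ → ℕ → ℕ} {o : ℕ → ℝ}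

lemma rk_lt (hD : ∀ u d, {w | D u w = d}.Finite) {u v v' : ℕ} (h1 : D u v = D u v')
    (h2 : o v < o v') : rk D o u v < rk D o u v' := by
  unfold rk
  refine Set.ncard_lt_ncard ?_ ((hD u (D u v')).subset fun w hw => hw.1)
  rw [h1]
  refine ⟨fun w hw => ⟨hw.1, hw.2.trans h2⟩, fun hsub => ?_⟩
  have : v ∈ {w | D u w = D u v' ∧ o w < o v} := hsub ⟨h1, h2⟩
  exact lt_irrefl _ this.2

lemma idx_inj (hD : ∀ u d, {w | D u w = d}.Finite) (ho : Function.Injective o) {u v v' : ℕ}
    (h : idx D o u v = idx D o u v') : v = v' := by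
  unfold idx at h
  rw [Prod.mk.injEq] at h
  by_contra hne
  have hne' : o v ≠ o v' := fun h' => hne (ho h')
  rcases lt_or_gt_of_ne hne' with h2 | h2
  · exact (rk_lt hD h.1 h2).ne h.2
  · exact (rk_lt hD h.1.symm h2).ne h.2.symm

/-- The coordinate read for a pair. -/
noncomputable def piO (D : ℕ → ℕ → ℕ) (o : ℕ → ℝ) (e : Sym2 ℕ) : JJ :=
  if o e.out.1 ≤ o e.out.2 then (e.out.1, idx D o e.out.1 e.out.2)
  else (e.out.2, idx D o e.out.2 e.out.1)

lemma piO_spec (D : ℕ → ℕ → ℕ) (o : ℕ → ℝ) (e : Sym2 ℕ) :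
    ∃ a b, e = s(a, b) ∧ piO D o e = (a, idx D o a b) ∧ o a ≤ o b := by
  have he : e = s(e.out.1, e.out.2) := (Quot.out_eq e).symm
  unfold piO
  by_cases h : o e.out.1 ≤ o e.out.2
  · exact ⟨_, _, he, by rw [if_pos h], h⟩
  · refine ⟨_, _, he.trans Sym2.eq_swap, by rw [if_neg h], (not_le.mp h).le⟩

lemma NN_eq_piO (ho : Function.Injective o) (s : JJ → ℝ) (e : Sym2 ℕ) :
    NN D o s e = s (piO D o e) := by
  obtain ⟨a, b, rfl, h2, h3⟩ := piO_spec D o e
  rw [h2, NN_mk]
  unfold ff
  rcases h3.lt_or_eq with h4 | h4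
  · rw [if_pos h4]
    rfl
  · have hab : a = b := ho h4
    subst hab
    simp [aa]

lemma piO_injective (hD : ∀ u d, {w | D u w = d}.Finite) (ho : Function.Injective o) :
    Function.Injective (piO D o) := by
  intro e e' h
  obtain ⟨a, b, rfl, h2, _⟩ := piO_spec D o e
  obtain ⟨a', b', rfl, h2', _⟩ := piO_spec D o e'
  rw [h2, h2', Prod.mk.injEq] at h
  obtain ⟨rfl, h3⟩ := h
  rw [idx_inj hD ho h3]

end Inj

/-! ### Measurability -/

section Meas

variable {X : Type*} [MeasurableSpace X]

/-- Joint measurability of the noise. -/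
theorem measurable_NN {D : X → ℕ → ℕ → ℕ} {o : X → ℕ → ℝ} {s : X → JJ → ℝ}
    (hD : ∀ u v, Measurable fun x => D x u v) (ho : ∀ u, Measurable fun x => o x u)
    (hs : ∀ q, Measurable fun x => s x q) (e : Sym2 ℕ) :
    Measurable fun x => NN (D x) (o x) (s x) e := by
  have hrk : ∀ u v, Measurable fun x => rk (D x) (o x) u v := by
    intro u v
    refine measurable_ncard (fun x w => D x u w = D x u v ∧ o x w < o x v) fun w => ?_
    exact (measurableSet_eq_fun (hD u w) (hD u v)).inter (measurableSet_lt (ho w) (ho v))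
  have hidx : ∀ u v, Measurable fun x => idx (D x) (o x) u v := fun u v =>
    (hD u v).prodMk (hrk u v)
  have haa : ∀ u v, Measurable fun x => aa (D x) (o x) (s x) u v := by
    intro u v
    have h1 : Measurable fun p : X × (ℕ × ℕ) => s p.1 (u, p.2) :=
      measurable_from_prod_countable_left fun i => hs (u, i)
    have h2 : Measurable fun x => (x, idx (D x) (o x) u v) := measurable_id.prodMk (hidx u v)
    exact h1.comp h2
  induction e using Sym2.ind with
  | _ u v =>
    show Measurable fun x => ff (D x) (o x) (s x) u v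
    unfold ff
    refine Measurable.ite (measurableSet_lt (ho u) (ho v)) (haa u v) ?_
    refine Measurable.ite (measurableSet_lt (ho v) (ho u)) (haa v u) ?_
    exact (haa u v).max (haa v u)

lemma measurable_NN_pair (D : ℕ → ℕ → ℕ) :
    Measurable fun p : (ℕ → ℝ) × (JJ → ℝ) => NN D p.1 p.2 := by
  refine measurable_pi_lambda _ fun e => ?_
  exact measurable_NN (D := fun _ => D) (o := fun p : (ℕ → ℝ) × (JJ → ℝ) => p.1)
    (s := fun p : (ℕ → ℝ) × (JJ → ℝ) => p.2)
    (fun _ _ => measurable_const) (fun u => (measurable_pi_apply u).comp measurable_fst)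
    (fun q => (measurable_pi_apply q).comp measurable_snd) e

end Meas

/-! ### The law of the noise -/

lemma gamE_map_inj {J' J : Type*} {f : J' → J} (hf : Function.Injective f) :
    (gamE J).map (fun ω i => ω (f i)) = gamE J' := by
  unfold gamE
  exact Measure.map_infinitePi_infinitePi_of_inj hf

lemma measurable_comp_right {J' J : Type*} (f : J' → J) :
    Measurable fun ω : J → ℝ => fun i => ω (f i) :=
  measurable_pi_lambda _ fun i => measurable_pi_apply _

/-- Disjoint sets of coordinates are independent. -/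
theorem gamE_split {J₁ J₂ J : Type*} {i₁ : J₁ → J} {i₂ : J₂ → J} (h₁ : Function.Injective i₁)
    (h₂ : Function.Injective i₂) (hd : ∀ a b, i₁ a ≠ i₂ b) :
    (gamE J).map (fun ω => ((fun a => ω (i₁ a)), (fun b => ω (i₂ b))))
      = (gamE J₁).prod (gamE J₂) := by
  have hind : IndepFun (fun ω : J → ℝ => fun a => ω (i₁ a)) (fun ω : J → ℝ => fun b => ω (i₂ b))
      (gamE J) := by
    have h0 : iIndepFun (fun (i : J) (ω : J → ℝ) => ω i) (gamE J) := by
      unfold gamE
      exact iIndepFun_infinitePi (X := fun _ ω => ω) (fun _ => measurable_id)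
    have h1 := (iIndepFun_iff_iIndep (fun _ => inferInstance) _ _).mp h0
    have hdisj : Disjoint (Set.range i₁) (Set.range i₂) := by
      rw [Set.disjoint_left]
      rintro _ ⟨a, rfl⟩ ⟨b, hb⟩
      exact hd a b hb.symm
    have h2 := indep_iSup_of_disjoint (fun i => (measurable_pi_apply i).comap_le) h1 hdisj
    rw [IndepFun_iff_Indep]
    refine indep_of_indep_of_le_left (indep_of_indep_of_le_right h2 ?_) ?_
    · rw [MeasurableSpace.comap_le_iff_le_map]
      refine measurable_iff_le_map.mp ?_
      rw [@measurable_pi_iff _ _ _ (⨆ i ∈ Set.range i₂, _)]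
      intro b
      refine Measurable.of_comap_le ?_
      refine le_trans ?_ (le_iSup₂_of_le (i₂ b) ⟨b, rfl⟩ le_rfl)
      exact le_rfl
    · rw [MeasurableSpace.comap_le_iff_le_map]
      refine measurable_iff_le_map.mp ?_
      rw [@measurable_pi_iff _ _ _ (⨆ i ∈ Set.range i₁, _)]
      intro a
      refine Measurable.of_comap_le ?_
      refine le_trans ?_ (le_iSup₂_of_le (i₁ a) ⟨a, rfl⟩ le_rfl)
      exact le_rfl
  have hm₁ := measurable_comp_right (J := J) i₁
  have hm₂ := measurable_comp_right (J := J) i₂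
  have := hind.map_prod_eq_prod_map_map hm₁.aemeasurable hm₂.aemeasurable
  rw [gamE_map_inj h₁, gamE_map_inj h₂] at this
  exact this

/-- The coordinates are almost surely pairwise distinct. -/
theorem ae_injective : ∀ᵐ o ∂(gamE ℕ), Function.Injective o := by
  have h1 : ∀ i j : ℕ, i ≠ j → ∀ᵐ o ∂(gamE ℕ), o i ≠ o j := by
    intro i j hij
    have hmap := Measure.infinitePi_map_eval_prod (P := fun _ : ℕ => gaussianReal 0 1) hij
    have hnull : (gaussianReal 0 1).prod (gaussianReal 0 1) (Set.diagonal ℝ) = 0 := by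
      rw [Measure.prod_apply measurableSet_diagonal]
      have : NullSingletonClass (gaussianReal 0 1) :=
        nullSingletonClass_gaussianReal (by norm_num)
      have h2 : ∀ a : ℝ, gaussianReal 0 1 (Prod.mk a ⁻¹' Set.diagonal ℝ) = 0 := by
        intro a
        have : Prod.mk a ⁻¹' Set.diagonal ℝ = {a} := by
          ext b
          simp [Set.mem_diagonal_iff, eq_comm]
        rw [this]
        exact measure_singleton a
      simp [h2]
    have hm : Measurable fun o : ℕ → ℝ => (o i, o j) :=
      (measurable_pi_apply i).prodMk (measurable_pi_apply j)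
    rw [← hmap, Measure.map_apply hm measurableSet_diagonal] at hnull
    rw [ae_iff]
    refine measure_mono_null ?_ hnull
    intro o ho
    simpa [Set.mem_diagonal_iff] using ho
  have h2 : ∀ᵐ o ∂(gamE ℕ), ∀ i j : ℕ, i ≠ j → o i ≠ o j := by
    rw [ae_all_iff]
    intro i
    rw [ae_all_iff]
    intro j
    by_cases hij : i = j
    · exact Eventually.of_forall fun o h => absurd hij h
    · filter_upwards [h1 i j hij] with o ho _ using ho
  filter_upwards [h2] with o ho i j hij
  by_contra hne
  exact ho i j hne hij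

/-- For distinct ranks, the noise has independent Gaussian coordinates. -/
lemma law_NN_of_injective {D : ℕ → ℕ → ℕ} (hD : ∀ u d, {w | D u w = d}.Finite) {o : ℕ → ℝ}
    (ho : Function.Injective o) : (gamE JJ).map (NN D o) = gamE (Sym2 ℕ) := by
  have h1 : NN D o = fun s e => s (piO D o e) := by
    funext s e
    exact NN_eq_piO ho s e
  rw [h1]
  exact gamE_map_inj (piO_injective hD ho)

/-- The law of the noise. -/
theorem law_NN {D : ℕ → ℕ → ℕ} (hD : ∀ u d, {w | D u w = d}.Finite) :
    ((gamE ℕ).prod (gamE JJ)).map (fun p : (ℕ → ℝ) × (JJ → ℝ) => NN D p.1 p.2)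
      = gamE (Sym2 ℕ) := by
  have hm := measurable_NN_pair D
  ext B hB
  rw [Measure.map_apply hm hB, Measure.prod_apply (hm hB)]
  have h1 : ∀ᵐ o ∂(gamE ℕ), gamE JJ (Prod.mk o ⁻¹' ((fun p : (ℕ → ℝ) × (JJ → ℝ) => NN D p.1 p.2) ⁻¹' B))
      = gamE (Sym2 ℕ) B := by
    filter_upwards [ae_injective] with o ho
    rw [← law_NN_of_injective hD ho]
    have hm2 : Measurable (NN D o) := by
      have h3 : Measurable fun s : JJ → ℝ => (o, s) := measurable_const.prodMk measurable_id
      exact hm.comp h3
    rw [Measure.map_apply hm2 hB]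
    rfl
  rw [lintegral_congr_ae h1]
  simp

/-! ### From the labels -/

/-- The order read from the labels. -/
def oL (τ : unitInterval → Option (ℕ × ℕ) → ℝ) (x : ℕ → unitInterval) : ℕ → ℝ :=
  fun v => τ (x v) none

/-- The streams read from the labels. -/
def sL (τ : unitInterval → Option (ℕ × ℕ) → ℝ) (x : ℕ → unitInterval) : JJ → ℝ :=
  fun q => τ (x q.1) (some q.2)

/-- The law of the order and of the streams. -/
theorem law_labels {τ : unitInterval → Option (ℕ × ℕ) → ℝ} (hτ : Measurable τ)
    (hτmap : volume.map τ = gamE (Option (ℕ × ℕ))) :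
    (Crest.ProbabilityR.Labels.labelMeasure ℕ).map (fun x => (oL τ x, sL τ x))
      = (gamE ℕ).prod (gamE JJ) := by
  -- the array of all coordinates
  let ωL : (ℕ → unitInterval) → (ℕ × Option (ℕ × ℕ) → ℝ) := fun x p => τ (x p.1) p.2
  have hωm : Measurable ωL :=
    measurable_pi_lambda _ fun p => (measurable_pi_apply p.2).comp (hτ.comp (measurable_pi_apply p.1))
  have h1 : (Crest.ProbabilityR.Labels.labelMeasure ℕ).map ωL = gamE (ℕ × Option (ℕ × ℕ)) := by
    have h2 : (Crest.ProbabilityR.Labels.labelMeasure ℕ).map (fun x v => τ (x v))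
        = Measure.infinitePi fun _ : ℕ => gamE (Option (ℕ × ℕ)) := by
      unfold Crest.ProbabilityR.Labels.labelMeasure
      have := Measure.infinitePi_map_pi (fun _ : ℕ => (volume : Measure unitInterval))
        (f := fun _ => τ) (fun _ => hτ)
      rw [this, hτmap]
    have h3 := Measure.infinitePi_map_curry_symm
      (μ := fun (_ : ℕ) (_ : Option (ℕ × ℕ)) => gaussianReal 0 1)
    have h4 : ωL = (MeasurableEquiv.curry ℕ (Option (ℕ × ℕ)) ℝ).symm ∘ (fun x v => τ (x v)) := rfl
    have hm2 : Measurable (fun (x : ℕ → unitInterval) (v : ℕ) => τ (x v)) :=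
      measurable_pi_lambda _ fun v => hτ.comp (measurable_pi_apply v)
    rw [h4, ← Measure.map_map (MeasurableEquiv.measurable _) hm2, h2]
    exact h3
  have h5 := gamE_split (J := ℕ × Option (ℕ × ℕ)) (i₁ := fun v : ℕ => (v, none))
    (i₂ := fun q : JJ => (q.1, some q.2))
    (fun a b h => (Prod.mk.inj h).1)
    (fun a b h => by
      have h6 := Prod.mk.inj h
      have h7 := Option.some.inj h6.2
      exact Prod.ext h6.1 h7)
    (fun a b h => by
      have h6 := (Prod.mk.inj h).2
      cases h6)
  rw [← h5, ← h1, Measure.map_map _ hωm]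
  · rfl
  · exact (measurable_comp_right _).prodMk (measurable_comp_right _)

/-- The graph distance, zero for unreachable vertices. -/
noncomputable def dst (G : SimpleGraph ℕ) (u v : ℕ) : ℕ := sInf {n | WalkLe G n u v}

lemma dst_comap (G : SimpleGraph ℕ) (σ : Equiv.Perm ℕ) (u v : ℕ) :
    dst (G.comap σ) u v = dst G (σ u) (σ v) := by
  unfold dst
  simp only [walkLe_comap]

lemma finite_dst {G : SimpleGraph ℕ} (hG : G.Connected) (hlf : ∀ v, (G.neighborSet v).Finite)
    (u d : ℕ) : {w | dst G u w = d}.Finite := by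
  refine (finite_walkLe hlf d u).subset fun w hw => ?_
  have h1 : dst G u w = d := hw
  have h2 : WalkLe G (dst G u w) u w := Nat.sInf_mem (exists_walkLe hG u w)
  rw [h1] at h2
  exact h2

/-- The noise of a graph and labels. -/
noncomputable def noise (G : SimpleGraph ℕ) (τ : unitInterval → Option (ℕ × ℕ) → ℝ)
    (x : ℕ → unitInterval) : Sym2 ℕ → ℝ :=
  NN (dst G) (oL τ x) (sL τ x)

lemma noise_comap (G : SimpleGraph ℕ) (σ : Equiv.Perm ℕ)
    (τ : unitInterval → Option (ℕ × ℕ) → ℝ) (x : ℕ → unitInterval) (e : Sym2 ℕ) :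
    noise (G.comap σ) τ (x ∘ σ) e = noise G τ x (shE σ e) := by
  unfold noise
  rw [← NN_comap]
  congr 1
  funext a b
  exact dst_comap G σ a b

lemma measurable_oL {τ : unitInterval → Option (ℕ × ℕ) → ℝ} (hτ : Measurable τ) (u : ℕ) :
    Measurable fun x : ℕ → unitInterval => oL τ x u :=
  (measurable_pi_apply none).comp (hτ.comp (measurable_pi_apply u))

lemma measurable_sL {τ : unitInterval → Option (ℕ × ℕ) → ℝ} (hτ : Measurable τ) (q : JJ) :
    Measurable fun x : ℕ → unitInterval => sL τ x q :=
  (measurable_pi_apply (some q.2)).comp (hτ.comp (measurable_pi_apply q.1))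

lemma measurable_noise_right (G : SimpleGraph ℕ) {τ : unitInterval → Option (ℕ × ℕ) → ℝ}
    (hτ : Measurable τ) : Measurable (noise G τ) := by
  refine measurable_pi_lambda _ fun e => ?_
  exact measurable_NN (D := fun _ => dst G) (o := oL τ) (s := sL τ) (fun _ _ => measurable_const)
    (measurable_oL hτ) (measurable_sL hτ) e

/-- The noise has independent standard Gaussian coordinates. -/
theorem law_noise {G : SimpleGraph ℕ} (hG : G.Connected) (hlf : ∀ v, (G.neighborSet v).Finite)
    {τ : unitInterval → Option (ℕ × ℕ) → ℝ} (hτ : Measurable τ)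
    (hτmap : volume.map τ = gamE (Option (ℕ × ℕ))) :
    (Crest.ProbabilityR.Labels.labelMeasure ℕ).map (noise G τ) = gamE (Sym2 ℕ) := by
  have h1 := law_NN (D := dst G) (finite_dst hG hlf)
  rw [← law_labels hτ hτmap, Measure.map_map (measurable_NN_pair _)] at h1
  · exact h1
  · exact (measurable_pi_lambda _ (measurable_oL hτ)).prodMk
      (measurable_pi_lambda _ (measurable_sL hτ))

end Crest.Agent.Lib.UST
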